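import Vale.Agent.P372.Defs
import Mathlib.Analysis.Matrix.HermitianFunctionalCalculus
import Mathlib.Analysis.CStarAlgebra.ContinuousFunctionalCalculus.Order

open Matrix
open scoped ComplexOrder MatrixOrder Kronecker

set_option linter.unusedSectionVars false

namespace Vale.Agent.P372

variable {d e : Type} [Fintype d] [DecidableEq d] [Fintype e] [DecidableEq e]

theorem cont (f : ℝ → ℝ) (a : Matrix d d ℂ) : ContinuousOn f (spectrum ℝ a) :=
  Matrix.finite_real_spectrum.continuousOn f

/-- functional calculus for Hermitian matrices -/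
noncomputable def fc (f : ℝ → ℝ) (a : Matrix d d ℂ) : Matrix d d ℂ := cfc f a

theorem fc_mul (f g : ℝ → ℝ) (a : Matrix d d ℂ) :
    fc f a * fc g a = fc (fun x => f x * g x) a :=
  (cfc_mul f g a (cont _ _) (cont _ _)).symm

theorem fc_add (f g : ℝ → ℝ) (a : Matrix d d ℂ) :
    fc f a + fc g a = fc (fun x => f x + g x) a :=
  (cfc_add a f g (cont _ _) (cont _ _)).symm

theorem fc_sub (f g : ℝ → ℝ) (a : Matrix d d ℂ) :
    fc f a - fc g a = fc (fun x => f x - g x) a :=
  (cfc_sub f g a (cont _ _) (cont _ _)).symm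

theorem fc_herm (f : ℝ → ℝ) (a : Matrix d d ℂ) : (fc f a)ᴴ = fc f a :=
  (cfc_predicate f a : IsSelfAdjoint (cfc f a))

theorem fc_id {a : Matrix d d ℂ} (ha : a.IsHermitian) : fc (fun x : ℝ => x) a = a :=
  cfc_id' ℝ a ha.isSelfAdjoint

theorem fc_one {a : Matrix d d ℂ} (ha : a.IsHermitian) : fc (fun _ : ℝ => 1) a = 1 :=
  cfc_const_one ℝ a ha.isSelfAdjoint

theorem fc_congr {f g : ℝ → ℝ} {a : Matrix d d ℂ} (h : ∀ x ∈ spectrum ℝ a, f x = g x) :
    fc f a = fc g a := cfc_congr h

theorem spec_nonneg {a : Matrix d d ℂ} (ha : a.PosSemidef) : ∀ x ∈ spectrum ℝ a, 0 ≤ x :=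
  fun _ hx => spectrum_nonneg_of_nonneg ha.nonneg hx

theorem fc_psd {f : ℝ → ℝ} {a : Matrix d d ℂ} (h : ∀ x ∈ spectrum ℝ a, 0 ≤ f x) :
    (fc f a).PosSemidef :=
  Matrix.nonneg_iff_posSemidef.mp (cfc_nonneg h)

theorem exists_diag {A : Matrix d d ℂ} (hA : A.IsHermitian) :
    ∃ V : Matrix d d ℂ, Vᴴ * V = 1 ∧ V * Vᴴ = 1 ∧
      A = V * diagonal (fun i => (hA.eigenvalues i : ℂ)) * Vᴴ := by
  refine ⟨hA.eigenvectorUnitary, ?_, ?_, ?_⟩
  · exact Unitary.coe_star_mul_self hA.eigenvectorUnitary
  · exact Unitary.coe_mul_star_self hA.eigenvectorUnitary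
  · have h := hA.spectral_theorem
    rw [Unitary.conjStarAlgAut_apply] at h
    exact h

theorem exists_root {A : Matrix d d ℂ} (hA : A.PosSemidef) : ∃ B : Matrix d d ℂ, A = Bᴴ * B := by
  refine ⟨fc Real.sqrt A, ?_⟩
  rw [fc_herm, fc_mul]
  conv_lhs => rw [← fc_id hA.1]
  exact fc_congr fun x hx => (Real.mul_self_sqrt (spec_nonneg hA x hx)).symm

theorem re_trace_nonneg {A : Matrix d d ℂ} (hA : A.PosSemidef) : 0 ≤ A.trace.re :=
  (Complex.nonneg_iff.mp hA.trace_nonneg).1

theorem re_trace_mul_nonneg {A B : Matrix d d ℂ} (hA : A.PosSemidef) (hB : B.PosSemidef) :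
    0 ≤ (A * B).trace.re := by
  obtain ⟨R, rfl⟩ := exists_root hA
  rw [Matrix.mul_assoc, trace_mul_comm]
  exact re_trace_nonneg (hB.mul_mul_conjTranspose_same R)

theorem re_diag_le (M N : Matrix d d ℂ) (i : d) :
    ((M * N) i i).re ≤ √(((M * Mᴴ) i i).re) * √(((Nᴴ * N) i i).re) := by
  have h1 : ((M * Mᴴ) i i).re = ∑ j, ‖M i j‖ ^ 2 := by
    simp only [Matrix.mul_apply, conjTranspose_apply, Complex.re_sum, Complex.star_def,
      Complex.mul_conj, Complex.ofReal_re, Complex.normSq_eq_norm_sq]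
  have h2 : ((Nᴴ * N) i i).re = ∑ j, ‖N j i‖ ^ 2 := by
    simp only [Matrix.mul_apply, conjTranspose_apply, Complex.re_sum, Complex.star_def,
      Complex.conj_mul', ← Complex.ofReal_pow, Complex.ofReal_re]
  rw [h1, h2]
  refine le_trans ?_ (Real.sum_mul_le_sqrt_mul_sqrt _ _ _)
  rw [Matrix.mul_apply, Complex.re_sum]
  refine Finset.sum_le_sum fun j _ => ?_
  rw [← norm_mul]
  exact Complex.re_le_norm _

theorem re_trace_mul_le (U X : Matrix d d ℂ) (hU : U * Uᴴ = 1) :
    (U * X).trace.re ≤ traceNorm X := by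
  unfold traceNorm
  have hinst : (fun a b => Classical.propDecidable (a = b)) = (inferInstance : DecidableEq d) :=
    Subsingleton.elim _ _
  rw [hinst]
  obtain ⟨V, h1, h2, h3⟩ := exists_diag (Matrix.isHermitian_conjTranspose_mul_self X)
  have e1 : (U * X).trace = (Vᴴ * U * (X * V)).trace := by
    rw [← Matrix.mul_assoc, trace_mul_comm _ V, ← Matrix.mul_assoc, ← Matrix.mul_assoc, h2,
      Matrix.one_mul]
  have e2 : (Vᴴ * U) * (Vᴴ * U)ᴴ = 1 := by
    rw [conjTranspose_mul, conjTranspose_conjTranspose, Matrix.mul_assoc, ← Matrix.mul_assoc U, hU,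
      Matrix.one_mul, h1]
  have e3 : (X * V)ᴴ * (X * V) = diagonal
      (fun i => ((Matrix.isHermitian_conjTranspose_mul_self X).eigenvalues i : ℂ)) := by
    rw [conjTranspose_mul, Matrix.mul_assoc, ← Matrix.mul_assoc Xᴴ]
    conv_lhs => rw [h3]
    simp only [← Matrix.mul_assoc, h1, Matrix.one_mul]
    rw [Matrix.mul_assoc, h1, Matrix.mul_one]
  rw [e1, Matrix.trace, Complex.re_sum]
  refine Finset.sum_le_sum fun i _ => ?_
  have := re_diag_le (Vᴴ * U) (X * V) i
  rw [e2, e3] at this
  simpa using this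

/-- polar decomposition with a contraction -/
theorem exists_polar (X : Matrix e d ℂ) : ∃ W : Matrix d e ℂ, (1 - Wᴴ * W).PosSemidef ∧
    (W * X).PosSemidef ∧ (W * X) * (W * X) = Xᴴ * X := by
  have hp := posSemidef_conjTranspose_mul_self X
  set a := Xᴴ * X with ha
  have hid : fc (fun x : ℝ => x) a = a := fc_id hp.1
  set g := fc (fun x => (√x)⁻¹) a with hg
  have hWX : g * Xᴴ * X = fc Real.sqrt a := by
    rw [Matrix.mul_assoc, ← ha]
    conv_lhs => rw [← hid]
    rw [hg, fc_mul]
    refine fc_congr fun x hx => ?_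
    have h0 := spec_nonneg hp x hx
    rcases h0.eq_or_lt with h | h
    · simp [← h]
    · have := Real.sqrt_pos.mpr h
      field_simp
      exact (Real.sq_sqrt h0).symm
  refine ⟨g * Xᴴ, ?_, ?_, ?_⟩
  · have hgh : gᴴ = g := fc_herm _ _
    have h4 : g * g * a * g * g = g * g := by
      conv_lhs => rw [← hid]
      simp only [hg, fc_mul]
      refine fc_congr fun x hx => ?_
      have h0 := spec_nonneg hp x hx
      rcases h0.eq_or_lt with h | h
      · simp [← h]
      · have := Real.sqrt_pos.mpr h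
        field_simp
        exact (Real.sq_sqrt h0).symm
    set Pj := (g * Xᴴ)ᴴ * (g * Xᴴ) with hP
    have hP2 : Pj = X * (g * g) * Xᴴ := by
      rw [hP, conjTranspose_mul, conjTranspose_conjTranspose, hgh]
      simp only [Matrix.mul_assoc]
    have hPP : Pj * Pj = Pj := by
      rw [hP2]
      conv_rhs => rw [← h4, ha]
      simp only [Matrix.mul_assoc]
    have hPh : Pjᴴ = Pj := by
      rw [hP, conjTranspose_mul, conjTranspose_conjTranspose]
    have : 1 - Pj = (1 - Pj)ᴴ * (1 - Pj) := by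
      rw [conjTranspose_sub, conjTranspose_one, hPh, Matrix.sub_mul, Matrix.mul_sub,
        Matrix.mul_sub, hPP]
      simp
    rw [this]
    exact posSemidef_conjTranspose_mul_self _
  · rw [hWX]
    exact fc_psd fun x _ => Real.sqrt_nonneg x
  · rw [hWX, fc_mul]
    conv_rhs => rw [← hid]
    exact fc_congr fun x hx => Real.mul_self_sqrt (spec_nonneg hp x hx)

/-- Powers-Stormer inequality with an explicit unitary test -/
theorem powers {a b : Matrix d d ℂ} (ha : a.PosSemidef) (hb : b.PosSemidef) :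
    ∃ Z : Matrix d d ℂ, Z * Zᴴ = 1 ∧
      (a * a).trace.re + (b * b).trace.re - 2 * (a * b).trace.re
        ≤ (Z * (a * a - b * b)).trace.re := by
  have hD : (a - b).IsHermitian := ha.1.sub hb.1
  set D := a - b with hDd
  set Z := fc (fun x => if 0 ≤ x then 1 else -1) D with hZ
  set Dp := fc (fun x => max x 0) D with hDp
  set Dm := fc (fun x => max (-x) 0) D with hDm
  have hid : fc (fun x : ℝ => x) D = D := fc_id hD
  have h1 : Z * D = Dp + Dm := by
    conv_lhs => rw [← hid]
    rw [hZ, fc_mul, hDp, hDm, fc_add]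
    refine fc_congr fun x _ => ?_
    split_ifs with h
    · rw [max_eq_left h, max_eq_right (by linarith)]; ring
    · rw [max_eq_right (by linarith), max_eq_left (by linarith)]; ring
  have h2 : D * Z = Dp + Dm := by
    conv_lhs => rw [← hid]
    rw [hZ, fc_mul, hDp, hDm, fc_add]
    refine fc_congr fun x _ => ?_
    split_ifs with h
    · rw [max_eq_left h, max_eq_right (by linarith)]; ring
    · rw [max_eq_right (by linarith), max_eq_left (by linarith)]; ring
  have h3 : Dp - Dm = D := by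
    conv_rhs => rw [← hid]
    rw [hDp, hDm, fc_sub]
    refine fc_congr fun x _ => ?_
    rcases le_total 0 x with h | h
    · rw [max_eq_left h, max_eq_right (by linarith)]; ring
    · rw [max_eq_right h, max_eq_left (by linarith)]; ring
  have hp : Dp.PosSemidef := fc_psd fun x _ => le_max_right _ _
  have hm : Dm.PosSemidef := fc_psd fun x _ => le_max_right _ _
  refine ⟨Z, ?_, ?_⟩
  · rw [hZ, fc_herm, fc_mul, ← fc_one hD]
    refine fc_congr fun x _ => ?_
    split_ifs <;> norm_num
  · have e1 : a * a - b * b = D * a + b * D := by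
      rw [hDd]; simp only [Matrix.sub_mul, Matrix.mul_sub]; abel
    have e2 : (Z * (a * a - b * b)).trace = ((Dp + Dm) * a).trace + ((Dp + Dm) * b).trace := by
      rw [e1, Matrix.mul_add, trace_add, ← Matrix.mul_assoc, h1, ← Matrix.mul_assoc,
        trace_mul_comm (Z * b) D, ← Matrix.mul_assoc, h2]
    have e3 : (a * a).trace + (b * b).trace - 2 * (a * b).trace
        = ((Dp - Dm) * a).trace - ((Dp - Dm) * b).trace := by
      rw [h3, hDd]
      simp only [Matrix.sub_mul, trace_sub, trace_mul_comm b a]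
      ring
    have e4 := congrArg Complex.re e3
    have f1 := re_trace_mul_nonneg hp hb
    have f2 := re_trace_mul_nonneg hm ha
    rw [e2]
    simp only [Matrix.add_mul, Matrix.sub_mul, trace_add, trace_sub, Complex.add_re,
      Complex.sub_re, Complex.mul_re, Complex.re_ofNat, Complex.im_ofNat, zero_mul,
      sub_zero] at e4 ⊢
    linarith

end Vale.Agent.P372
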