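import Mathlib.Algebra.CharP.Basic
import Mathlib.Algebra.Field.Basic
import Mathlib.Data.List.Forall2
import Mathlib.Tactic.Ring
import Mathlib.Tactic.LinearCombination

namespace Vale.Agent.P372

/-- strict evaluation of a natural number -/
def force {α : Type} (x : ℕ) (f : ℕ → α) : α :=
  match x with
  | 0 => f 0
  | n + 1 => f (n + 1)

theorem force_eq {α : Type} (x : ℕ) (f : ℕ → α) : force x f = f x := by cases x <;> rfl

/-- one row operation modulo `p` -/
def comb (p h s : ℕ) : List ℕ → List ℕ → List ℕ
  | r :: rs, t :: ts => (h * r + s * t) % p :: comb p h s rs ts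
  | _, _ => []

/-- strict version of `comb` -/
def combS {α : Type} (p h s : ℕ) : List ℕ → List ℕ → (List ℕ → α) → α
  | r :: rs, t :: ts, f => force ((h * r + s * t) % p) fun x => combS p h s rs ts fun l => f (x :: l)
  | _, _, f => f []

theorem combS_eq {α : Type} (p h s : ℕ) : ∀ (r t : List ℕ) (f : List ℕ → α),
    combS p h s r t f = f (comb p h s r t)
  | [], _, _ => by simp [combS, comb]
  | _ :: _, [], _ => by simp [combS, comb]
  | r :: rs, t :: ts, f => by simp only [combS, comb, force_eq, combS_eq p h s rs ts]

/-- elimination of the first unknown with pivot row `h :: t` -/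
def elim (p h : ℕ) (t : List ℕ) : List ℕ → List ℕ
  | [] => []
  | r :: rs => comb p h (p - r % p) rs t

/-- strict elimination on a list of rows -/
def elimS {α : Type} (p h : ℕ) (t : List ℕ) : List (List ℕ) → (List (List ℕ) → α) → α
  | [], f => f []
  | [] :: R, f => elimS p h t R fun l => f ([] :: l)
  | (r :: rs) :: R, f =>
      force (p - r % p) fun s => combS p h s rs t fun x => elimS p h t R fun l => f (x :: l)

theorem elimS_eq {α : Type} (p h : ℕ) (t : List ℕ) : ∀ (R : List (List ℕ))
    (f : List (List ℕ) → α), elimS p h t R f = f (R.map (elim p h t))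
  | [], _ => rfl
  | [] :: R, f => by simp only [elimS, elimS_eq p h t R, List.map_cons, elim]
  | (r :: rs) :: R, f => by
      simp only [elimS, force_eq, combS_eq, elimS_eq p h t R, List.map_cons, elim]

/-- decision tree: every row is killed by one of two unknown vectors -/
def check (p : ℕ) : ℕ → List (List ℕ) → List (List ℕ) → Bool
  | n + 1, (h :: t) :: A, (g :: u) :: B =>
      (h % p != 0 && (t.isEmpty || elimS p h t A fun A' => check p n A' B)) &&
      (g % p != 0 && (u.isEmpty || elimS p g u B fun B' => check p n A B'))
  | _, _, _ => false

variable {k : Type} [Field k]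

/-- pairing of a row with an unknown vector -/
def dot : List ℕ → List k → k
  | a :: as, q :: qs => (a : k) * q + dot as qs
  | _, _ => 0

theorem comb_spec {p : ℕ} (hp : (p : k) = 0) (h s : ℕ) : ∀ (r t : List ℕ) (q : List k),
    r.length = q.length → t.length = q.length →
      (comb p h s r t).length = q.length ∧ dot (comb p h s r t) q = h * dot r q + s * dot t q
  | [], [], [], _, _ => by simp [comb, dot]
  | r :: rs, t :: ts, q :: qs, h1, h2 => by
    obtain ⟨a, b⟩ := comb_spec hp h s rs ts qs (by simpa using h1) (by simpa using h2)
    have e : (((h * r + s * t) % p : ℕ) : k) = h * r + s * t := by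
      have := congrArg (Nat.cast : ℕ → k) (Nat.mod_add_div (h * r + s * t) p)
      push_cast at this
      rw [hp] at this
      linear_combination this
    refine ⟨by simp [comb, a], ?_⟩
    simp only [comb, dot, b, e]
    ring
  | [], _ :: _, [], _, h => by simp at h
  | _ :: _, _, [], h, _ => by simp at h
  | [], _, _ :: _, h, _ => by simp at h
  | _ :: _, [], _ :: _, _, h => by simp at h

theorem elim_spec {p : ℕ} (hp0 : 0 < p) (hp : (p : k) = 0) (h : ℕ) (t r : List ℕ) (q0 : k)
    (q : List k) (ht : t.length = q.length) (hr : r.length = (q0 :: q).length)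
    (h0 : dot (h :: t) (q0 :: q) = 0) :
    (elim p h t r).length = q.length ∧ dot (elim p h t r) q = h * dot r (q0 :: q) := by
  cases r with
  | nil => simp at hr
  | cons r rs =>
    obtain ⟨a, b⟩ := comb_spec hp h (p - r % p) rs t q (by simpa using hr) ht
    refine ⟨a, ?_⟩
    have e : ((p - r % p : ℕ) : k) = -r := by
      rw [Nat.cast_sub (Nat.mod_lt r hp0).le]
      have := congrArg (Nat.cast : ℕ → k) (Nat.mod_add_div r p)
      push_cast at this
      rw [hp] at this ⊢
      linear_combination -this
    simp only [elim, b, e, dot] at h0 ⊢
    linear_combination (-(r : k)) * h0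

theorem check_sound {p : ℕ} (hp0 : 0 < p) [CharP k p] : ∀ (n : ℕ) (A B : List (List ℕ))
    (q q' : List k), check p n A B = true →
    List.Forall₂ (fun a b => a.length = q.length ∧ b.length = q'.length ∧
      (dot a q = 0 ∨ dot b q' = 0)) A B → (∀ x ∈ q, x = 0) ∨ (∀ x ∈ q', x = 0) := by
  have hp : (p : k) = 0 := CharP.cast_eq_zero k p
  intro n
  induction n with
  | zero => intro A B q q' h; simp [check] at h
  | succ n ih =>
    intro A B q q' hc hf
    match A, B, hc, hf with
    | (h :: t) :: A, (g :: u) :: B, hc, hf =>
      obtain ⟨⟨l1, l2, h0⟩, hf⟩ := List.forall₂_cons.mp hf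
      simp only [check, elimS_eq, Bool.and_eq_true, bne_iff_ne, Bool.or_eq_true,
        List.isEmpty_iff] at hc
      obtain ⟨⟨c1, c2⟩, c3, c4⟩ := hc
      have n1 : (h : k) ≠ 0 := fun e =>
        c1 (Nat.mod_eq_zero_of_dvd ((CharP.cast_eq_zero_iff k p h).mp e))
      have n2 : (g : k) ≠ 0 := fun e =>
        c3 (Nat.mod_eq_zero_of_dvd ((CharP.cast_eq_zero_iff k p g).mp e))
      rcases h0 with h0 | h0
      · obtain _ | ⟨q0, qs⟩ := q
        · simp
        have lt : t.length = qs.length := by simpa using l1
        have fin : (∀ x ∈ qs, x = 0) → ∀ x ∈ q0 :: qs, x = 0 := by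
          intro hz
          have hd : ∀ (t : List ℕ) (qs : List k), (∀ x ∈ qs, x = 0) → dot t qs = 0 := by
            intro t qs
            induction qs generalizing t with
            | nil => intro _; cases t <;> rfl
            | cons a as iha =>
              intro hz
              cases t with
              | nil => rfl
              | cons b bs =>
                simp only [dot, hz a (by simp), iha bs fun x hx => hz x (by simp [hx])]
                simp
          simp only [dot, hd t qs hz, add_zero, mul_eq_zero, n1, false_or] at h0
          simpa [h0] using hz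
        rcases c2 with rfl | c2
        · left
          refine fin ?_
          cases qs with
          | nil => simp
          | cons _ _ => simp at lt
        · refine (ih _ _ qs q' c2 ?_).imp_left fin
          rw [List.forall₂_map_left_iff]
          refine hf.imp fun a b ⟨a1, a2, a3⟩ => ?_
          obtain ⟨b1, b2⟩ := elim_spec hp0 hp h t a q0 qs lt a1 h0
          exact ⟨b1, a2, a3.imp_left fun e => by rw [b2, e, mul_zero]⟩
      · obtain _ | ⟨q0, qs⟩ := q'
        · simp
        have lt : u.length = qs.length := by simpa using l2
        have fin : (∀ x ∈ qs, x = 0) → ∀ x ∈ q0 :: qs, x = 0 := by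
          intro hz
          have hd : ∀ (t : List ℕ) (qs : List k), (∀ x ∈ qs, x = 0) → dot t qs = 0 := by
            intro t qs
            induction qs generalizing t with
            | nil => intro _; cases t <;> rfl
            | cons a as iha =>
              intro hz
              cases t with
              | nil => rfl
              | cons b bs =>
                simp only [dot, hz a (by simp), iha bs fun x hx => hz x (by simp [hx])]
                simp
          simp only [dot, hd u qs hz, add_zero, mul_eq_zero, n2, false_or] at h0
          simpa [h0] using hz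
        rcases c4 with rfl | c4
        · right
          refine fin ?_
          cases qs with
          | nil => simp
          | cons _ _ => simp at lt
        · refine (ih _ _ q qs c4 ?_).imp_right fin
          rw [List.forall₂_map_right_iff]
          refine hf.imp fun a b ⟨a1, a2, a3⟩ => ?_
          obtain ⟨b1, b2⟩ := elim_spec hp0 hp g u b q0 qs lt a2 h0
          exact ⟨a1, b1, a3.imp_right fun e => by rw [b2, e, mul_zero]⟩
    | [], _, hc, _ => simp [check] at hc
    | [] :: _, _, hc, _ => simp [check] at hc
    | (_ :: _) :: _, [], hc, _ => simp [check] at hc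
    | (_ :: _) :: _, [] :: _, hc, _ => simp [check] at hc

end Vale.Agent.P372
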