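import Mathlib.Analysis.Matrix.Order
import Mathlib.LinearAlgebra.Matrix.Kronecker
import Mathlib.Topology.Instances.ENNReal.Lemmas

open scoped ComplexOrder Kronecker ENNReal Matrix

namespace Vale.Agent.P372

/-- density matrix -/
def IsState {d : Type} [Fintype d] (ρ : Matrix d d ℂ) : Prop :=
  ρ.PosSemidef ∧ ρ.trace = 1

/-- finite convex combination of product states -/
def Separable {A B : Type} [Fintype A] [Fintype B] (ρ : Matrix (A × B) (A × B) ℂ) : Prop :=
  ∃ (k : ℕ) (w : Fin k → ℝ) (α : Fin k → Matrix A A ℂ) (β : Fin k → Matrix B B ℂ),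
    (∀ i, 0 ≤ w i) ∧ ∑ i, w i = 1 ∧ (∀ i, IsState (α i)) ∧ (∀ i, IsState (β i)) ∧
    ρ = ∑ i, (w i : ℂ) • (α i ⊗ₖ β i)

/-- the vector `ψ` on `A B E` is a purification of `ρ`: tracing out `E` gives `ρ` -/
def Purifies {A B E : Type} [Fintype E] (ψ : (A × B) × E → ℂ) (ρ : Matrix (A × B) (A × B) ℂ) :
    Prop :=
  ∀ x y, ρ x y = ∑ e, ψ (x, e) * star (ψ (y, e))

/-- `n` copies of the pure state `ψ`, as a density matrix on `A^n B^n E^n` -/
def copies {A B E : Type} (ψ : (A × B) × E → ℂ) (n : ℕ) :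
    Matrix (((Fin n → A) × (Fin n → B)) × (Fin n → E))
      (((Fin n → A) × (Fin n → B)) × (Fin n → E)) ℂ :=
  Matrix.vecMulVec (fun x => ∏ i, ψ ((x.1.1 i, x.1.2 i), x.2 i))
    (star fun x => ∏ i, ψ ((x.1.1 i, x.1.2 i), x.2 i))

/-- protocol trees; `A`, `B` index the current systems of Alice and Bob, `K` the key values.
`done`: both measure their key. `alice`, `bob`: the party applies a local instrument with
outcomes `i : Fin m`, Kraus operators `T i j` into a new system of dimension `d i`, announces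
`i` publicly, and the protocol continues with `next i`. -/
inductive Prot (K : Type) : Type → Type → Type 1
  | done {A B : Type} (P : K → Matrix A A ℂ) (Q : K → Matrix B B ℂ) : Prot K A B
  | alice {A B : Type} (m r : ℕ) (d : Fin m → ℕ)
      (T : (i : Fin m) → Fin r → Matrix (Fin (d i)) A ℂ)
      (next : (i : Fin m) → Prot K (Fin (d i)) B) : Prot K A B
  | bob {A B : Type} (m r : ℕ) (d : Fin m → ℕ)
      (T : (i : Fin m) → Fin r → Matrix (Fin (d i)) B ℂ)
      (next : (i : Fin m) → Prot K A (Fin (d i))) : Prot K A B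

/-- complete public transcripts -/
def Prot.Leaf {K : Type} : {A B : Type} → Prot K A B → Type
  | _, _, .done _ _ => Unit
  | _, _, .alice m _ _ _ next => (i : Fin m) × (next i).Leaf
  | _, _, .bob m _ _ _ next => (i : Fin m) × (next i).Leaf

theorem Prot.finite_leaf {K A B : Type} (p : Prot K A B) : Finite p.Leaf := by
  induction p with
  | done P Q => exact inferInstanceAs (Finite Unit)
  | alice m r d T next ih => exact inferInstanceAs (Finite ((i : Fin m) × (next i).Leaf))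
  | bob m r d T next ih => exact inferInstanceAs (Finite ((i : Fin m) × (next i).Leaf))

noncomputable instance {K A B : Type} (p : Prot K A B) : Fintype p.Leaf :=
  @Fintype.ofFinite _ p.finite_leaf

open Classical in
/-- the final measurements are POVMs and the instruments are trace preserving -/
def Prot.Valid {K : Type} [Fintype K] : {A B : Type} → Prot K A B → Prop
  | _, _, .done P Q =>
      (∀ k, (P k).PosSemidef) ∧ ∑ k, P k = 1 ∧ (∀ k, (Q k).PosSemidef) ∧ ∑ k, Q k = 1
  | _, _, .alice _ _ _ T next => ∑ i, ∑ j, (T i j)ᴴ * T i j = 1 ∧ ∀ i, (next i).Valid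
  | _, _, .bob _ _ _ T next => ∑ i, ∑ j, (T i j)ᴴ * T i j = 1 ∧ ∀ i, (next i).Valid

open Classical in
/-- the unnormalised state left on `E` when the protocol, run on the state `τ` of `A B E`,
produces the given transcript and the keys `k`, `k'` -/
noncomputable def Prot.out {K E : Type} [Fintype E] :
    {A B : Type} → [Fintype A] → [Fintype B] → (p : Prot K A B) →
      Matrix ((A × B) × E) ((A × B) × E) ℂ → p.Leaf → K → K → Matrix E E ℂ
  | _, _, _, _, .done P Q, τ, _, k, k' =>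
      Matrix.of fun e e' => ∑ x, ((P k ⊗ₖ Q k' ⊗ₖ (1 : Matrix E E ℂ)) * τ) (x, e) (x, e')
  | _, B, _, _, .alice _ _ _ T next, τ, l, k, k' =>
      (next l.1).out (∑ j, (T l.1 j ⊗ₖ (1 : Matrix B B ℂ) ⊗ₖ (1 : Matrix E E ℂ)) * τ *
        (T l.1 j ⊗ₖ (1 : Matrix B B ℂ) ⊗ₖ (1 : Matrix E E ℂ))ᴴ) l.2 k k'
  | A, _, _, _, .bob _ _ _ T next, τ, l, k, k' =>
      (next l.1).out (∑ j, ((1 : Matrix A A ℂ) ⊗ₖ T l.1 j ⊗ₖ (1 : Matrix E E ℂ)) * τ *
        ((1 : Matrix A A ℂ) ⊗ₖ T l.1 j ⊗ₖ (1 : Matrix E E ℂ))ᴴ) l.2 k k'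

open Classical in
/-- the final state on the two key registers and on Eve's system `E` with the transcript -/
noncomputable def Prot.final {K E A B : Type} [Fintype E] [Fintype A] [Fintype B]
    (p : Prot K A B) (τ : Matrix ((A × B) × E) ((A × B) × E) ℂ) :
    Matrix ((K × K) × (E × p.Leaf)) ((K × K) × (E × p.Leaf)) ℂ :=
  Matrix.of fun x y =>
    if x.1 = y.1 ∧ x.2.2 = y.2.2 then p.out τ x.2.2 x.1.1 x.1.2 x.2.1 y.2.1 else 0

open Classical in
/-- trace norm: the sum of the square roots of the eigenvalues of `Xᴴ X` -/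
noncomputable def traceNorm {n : Type} [Fintype n] (X : Matrix n n ℂ) : ℝ :=
  ∑ i, √((Matrix.isHermitian_conjTranspose_mul_self X).eigenvalues i)

/-- the protocol with `ℓ`-bit keys, run on `τ`, has error at most `ε` -/
def HasError {ℓ : ℕ} {E A B : Type} [Fintype E] [Fintype A] [Fintype B]
    (p : Prot (Fin ℓ → Bool) A B) (τ : Matrix ((A × B) × E) ((A × B) × E) ℂ) (ε : ℝ) : Prop :=
  ∃ σ : Matrix (E × p.Leaf) (E × p.Leaf) ℂ, IsState σ ∧
    traceNorm (p.final τ - ((2 : ℂ) ^ ℓ)⁻¹ •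
      ∑ z : Fin ℓ → Bool, Matrix.single (z, z) (z, z) (1 : ℂ) ⊗ₖ σ) ≤ ε

/-- distillable secret key when Eve holds the system `E` of the pure state `ψ` -/
noncomputable def keyRate {A B E : Type} [Fintype A] [Fintype B] [Fintype E]
    (ψ : (A × B) × E → ℂ) : ℝ≥0∞ :=
  sSup {R | ∃ (ℓ : ℕ → ℕ) (p : (n : ℕ) → Prot (Fin (ℓ n) → Bool) (Fin n → A) (Fin n → B))
    (ε : ℕ → ℝ), (∀ n, (p n).Valid) ∧ (∀ n, HasError (p n) (copies ψ n) (ε n)) ∧
      Filter.Tendsto ε Filter.atTop (nhds 0) ∧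
      R = Filter.liminf (fun n : ℕ => (ℓ n : ℝ≥0∞) / n) Filter.atTop}

end Vale.Agent.P372
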