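import Vale.Agent.P372.Basic

open Matrix
open scoped ComplexOrder MatrixOrder Kronecker

set_option linter.unusedSectionVars false

namespace Vale.Agent.P372

variable {I J C D : Type} [Fintype I] [DecidableEq I] [Fintype J] [DecidableEq J]
  [Fintype C] [DecidableEq C] [Fintype D] [DecidableEq D]

/-- real part of the sesquilinear form of a matrix -/
noncomputable def qf (M : Matrix I I ℂ) (u v : I → ℂ) : ℝ := (star u ⬝ᵥ M *ᵥ v).re

theorem qf_conj (M : Matrix I I ℂ) (A B : Matrix I J ℂ) (u v : J → ℂ) :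
    qf M (A *ᵥ u) (B *ᵥ v) = qf (Aᴴ * M * B) u v := by
  simp only [qf, star_mulVec, ← dotProduct_mulVec, mulVec_mulVec, Matrix.mul_assoc]

theorem qf_add (M N : Matrix I I ℂ) (u v : I → ℂ) : qf (M + N) u v = qf M u v + qf N u v := by
  simp [qf, add_mulVec]

theorem qf_sub (M N : Matrix I I ℂ) (u v : I → ℂ) : qf (M - N) u v = qf M u v - qf N u v := by
  simp [qf, sub_mulVec]

theorem qf_smul (t : ℝ) (M : Matrix I I ℂ) (u v : I → ℂ) : qf ((t : ℂ) • M) u v = t * qf M u v := by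
  simp [qf, smul_mulVec]

theorem qf_sum {ι : Type} (s : Finset ι) (M : ι → Matrix I I ℂ) (u v : I → ℂ) :
    qf (∑ i ∈ s, M i) u v = ∑ i ∈ s, qf (M i) u v := by
  simp [qf, sum_mulVec, dotProduct_sum]

theorem qf_star (M : Matrix I I ℂ) (u v : I → ℂ) : qf Mᴴ u v = qf M v u := by
  unfold qf
  rw [dotProduct_mulVec, ← star_mulVec, star_dotProduct, Complex.star_def, Complex.conj_re]

theorem qf_nonneg {M : Matrix I I ℂ} (h : M.PosSemidef) (u : I → ℂ) : 0 ≤ qf M u u :=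
  (Complex.nonneg_iff.mp (h.dotProduct_mulVec_nonneg u)).1

theorem qf_pos {M : Matrix I I ℂ} (h : M.PosDef) {u : I → ℂ} (hu : u ≠ 0) : 0 < qf M u u :=
  (Complex.pos_iff.mp (h.dotProduct_mulVec_pos hu)).1

theorem qf_mono {M N : Matrix I I ℂ} (h : (N - M).PosSemidef) (u : I → ℂ) :
    qf M u u ≤ qf N u u := by
  have := qf_nonneg h u
  rw [qf_sub] at this
  linarith

/-- real diagonal matrix -/
noncomputable def dg (f : I → ℝ) : Matrix I I ℂ := diagonal fun i => (f i : ℂ)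

theorem dg_mul (f g : I → ℝ) : dg f * dg g = dg fun i => f i * g i := by
  simp [dg, diagonal_mul_diagonal]

theorem dg_star (f : I → ℝ) : (dg f)ᴴ = dg f := by
  simp [dg, diagonal_conjTranspose, Pi.star_def]

theorem dg_one : dg (fun _ : I => 1) = 1 := by simp [dg]

theorem dg_psd {f : I → ℝ} (h : ∀ i, 0 ≤ f i) : (dg f).PosSemidef :=
  PosSemidef.diagonal fun i => by simpa using h i

theorem dg_pd {f : I → ℝ} (h : ∀ i, 0 < f i) : (dg f).PosDef :=
  PosDef.diagonal fun i => by simpa using h i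

theorem dg_kron (f : C → ℝ) (g : D → ℝ) : dg f ⊗ₖ dg g = dg fun x : C × D => f x.1 * g x.2 := by
  simp [dg, diagonal_kronecker_diagonal]

theorem geo_diag (K : Matrix I I ℂ) (Λ : I → ℝ) (hΛ : ∀ i, 0 < Λ i)
    (H1 : ∀ u v, 2 * qf K u v ≤ qf 1 u u + qf (dg Λ) v v)
    (H2 : ∀ u v, 2 * qf K u v ≤ qf (dg Λ) u u + qf 1 v v) (η : I → ℂ) :
    qf K η η ≤ qf (dg fun i => √(Λ i)) η η := by
  set H : Matrix I I ℂ := ((1 / 2 : ℝ) : ℂ) • (K + Kᴴ) with hH
  have hq : ∀ u v, qf H u v = 1 / 2 * (qf K u v + qf K v u) := fun u v => by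
    rw [hH, qf_smul, qf_add, qf_star]
  have hHh : Hᴴ = H := by
    rw [hH, conjTranspose_smul, conjTranspose_add, conjTranspose_conjTranspose, add_comm]
    simp
  have H3 : ∀ u v, 2 * qf H u v ≤ qf 1 u u + qf (dg Λ) v v := fun u v => by
    have := H1 u v
    have := H2 v u
    rw [hq]
    linarith
  set r : I → ℝ := fun i => √(√(Λ i)) with hr
  have hr0 : ∀ i, 0 < r i := fun i => Real.sqrt_pos.mpr (Real.sqrt_pos.mpr (hΛ i))
  have hrr : ∀ i, r i * r i = √(Λ i) := fun i => Real.mul_self_sqrt (Real.sqrt_nonneg _)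
  have hr4 : ∀ i, Λ i = r i * r i * (r i * r i) := fun i => by
    rw [hrr, Real.mul_self_sqrt (hΛ i).le]
  set h := dg r with hh
  set hi := dg fun i => (r i)⁻¹ with hhi
  have e1 : h * hi = 1 := by
    rw [hh, hhi, dg_mul, ← dg_one]; congr 1; funext i; exact mul_inv_cancel₀ (hr0 i).ne'
  have e2 : hi * h = 1 := by
    rw [hh, hhi, dg_mul, ← dg_one]; congr 1; funext i; exact inv_mul_cancel₀ (hr0 i).ne'
  have e3 : h * h = dg fun i => √(Λ i) := by
    rw [hh, dg_mul]; congr 1; funext i; exact hrr i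
  have e4 : hi * dg Λ * hi = h * h := by
    rw [hh, hhi, dg_mul, dg_mul, dg_mul]; congr 1; funext i
    have := (hr0 i).ne'
    rw [hr4 i]; field_simp
  have hs : hᴴ = h := dg_star _
  have his : hiᴴ = hi := dg_star _
  have hR : (hi * H * hi).IsHermitian := by
    unfold IsHermitian
    rw [conjTranspose_mul, conjTranspose_mul, his, hHh, Matrix.mul_assoc]
  have hle : ∀ j, hR.eigenvalues j ≤ 1 := by
    intro j
    have hw := hR.mulVec_eigenvectorBasis j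
    set w : I → ℂ := ⇑(hR.eigenvectorBasis j) with hwd
    have hw0 : w ≠ 0 := by
      intro h0
      have h1 := hR.eigenvectorBasis.orthonormal.ne_zero j
      apply h1
      ext i
      exact congrFun h0 i
    have hpos : 0 < qf (h * h) w w := by
      rw [e3]
      exact qf_pos (dg_pd fun i => Real.sqrt_pos.mpr (hΛ i)) hw0
    have h5 := H3 (h *ᵥ w) (hi *ᵥ w)
    rw [qf_conj, qf_conj, qf_conj, hs, his, e4, Matrix.mul_one] at h5
    have h6 : qf (h * H * hi) w w = hR.eigenvalues j * qf (h * h) w w := by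
      have : h * H * hi = h * h * (hi * H * hi) := by
        simp only [Matrix.mul_assoc]
        rw [← Matrix.mul_assoc h hi, e1, Matrix.one_mul]
      rw [this]
      unfold qf
      rw [← mulVec_mulVec, hw, mulVec_smul, dotProduct_smul]
      simp
    rw [h6] at h5
    nlinarith
  have hpsd : (1 - hi * H * hi).PosSemidef := by
    have : 1 - hi * H * hi = fc (fun x => 1 - x) (hi * H * hi) := by
      rw [← fc_sub, fc_one hR, fc_id hR]
    rw [this]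
    refine fc_psd fun x hx => ?_
    rw [hR.spectrum_real_eq_range_eigenvalues] at hx
    obtain ⟨j, rfl⟩ := hx
    linarith [hle j]
  have h7 := qf_nonneg hpsd (h *ᵥ η)
  rw [qf_conj, hs, Matrix.mul_sub, Matrix.sub_mul, Matrix.mul_one, qf_sub, e3] at h7
  have h8 : h * (hi * H * hi) * h = H := by
    simp only [← Matrix.mul_assoc, e1, Matrix.one_mul]
    rw [Matrix.mul_assoc, e2, Matrix.mul_one]
  rw [h8, hq] at h7
  linarith

theorem simul {a0 a1 : Matrix C C ℂ} (h0 : a0.PosDef) (h1 : a1.PosDef) :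
    ∃ (S S' : Matrix C C ℂ) (l : C → ℝ), (∀ c, 0 < l c) ∧ S' * S = 1 ∧ a0 = S * Sᴴ ∧
      a1 = S * dg l * Sᴴ := by
  have hpos : ∀ x ∈ spectrum ℝ a0, 0 < x := by
    intro x hx
    rw [h0.1.spectrum_real_eq_range_eigenvalues] at hx
    obtain ⟨j, rfl⟩ := hx
    exact h0.eigenvalues_pos j
  set r := fc Real.sqrt a0 with hr
  set ri := fc (fun x => (√x)⁻¹) a0 with hri
  have e1 : ri * r = 1 := by
    rw [hr, hri, fc_mul, ← fc_one h0.1]
    exact fc_congr fun x hx => inv_mul_cancel₀ (Real.sqrt_pos.mpr (hpos x hx)).ne'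
  have e2 : r * ri = 1 := by
    rw [hr, hri, fc_mul, ← fc_one h0.1]
    exact fc_congr fun x hx => mul_inv_cancel₀ (Real.sqrt_pos.mpr (hpos x hx)).ne'
  have e3 : r * r = a0 := by
    rw [hr, fc_mul]
    conv_rhs => rw [← fc_id h0.1]
    exact fc_congr fun x hx => Real.mul_self_sqrt (hpos x hx).le
  have hrs : rᴴ = r := fc_herm _ _
  have hris : riᴴ = ri := fc_herm _ _
  have hm : (riᴴ * a1 * ri).PosDef := by
    refine h1.conjTranspose_mul_mul_same ?_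
    intro u v huv
    have := congrArg (r *ᵥ ·) huv
    simpa [mulVec_mulVec, e2] using this
  obtain ⟨V, v1, v2, v3⟩ := exists_diag hm.1
  refine ⟨r * V, Vᴴ * ri, hm.1.eigenvalues, hm.eigenvalues_pos, ?_, ?_, ?_⟩
  · rw [Matrix.mul_assoc, ← Matrix.mul_assoc ri, e1, Matrix.one_mul, v1]
  · rw [conjTranspose_mul, hrs, Matrix.mul_assoc, ← Matrix.mul_assoc V, v2, Matrix.one_mul, e3]
  · have : r * V * dg hm.1.eigenvalues * (r * V)ᴴ = r * (riᴴ * a1 * ri) * r := by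
      conv_rhs => rw [v3]
      rw [conjTranspose_mul, hrs]
      simp only [Matrix.mul_assoc, dg]
    rw [this, hris]
    simp only [← Matrix.mul_assoc, e2, Matrix.one_mul]
    rw [Matrix.mul_assoc, e1, Matrix.mul_one]

theorem geo_pd {a0 a1 : Matrix C C ℂ} {b0 b1 : Matrix D D ℂ} (ha0 : a0.PosDef) (ha1 : a1.PosDef)
    (hb0 : b0.PosDef) (hb1 : b1.PosDef) (B : Matrix (C × D) (C × D) ℂ)
    (H1 : ∀ u v, 2 * qf B u v ≤ qf (a0 ⊗ₖ b0) u u + qf (a1 ⊗ₖ b1) v v)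
    (H2 : ∀ u v, 2 * qf B u v ≤ qf (a1 ⊗ₖ b1) u u + qf (a0 ⊗ₖ b0) v v) (ξ : C × D → ℂ) :
    2 * qf B ξ ξ ≤ qf (a0 ⊗ₖ b1) ξ ξ + qf (a1 ⊗ₖ b0) ξ ξ := by
  obtain ⟨S, S', l, hl, s1, s2, s3⟩ := simul ha0 ha1
  obtain ⟨T, T', m, hm, t1, t2, t3⟩ := simul hb0 hb1
  set M := S ⊗ₖ T with hM
  set M' := S' ⊗ₖ T' with hM'
  have e1 : M' * M = 1 := by rw [hM, hM', ← mul_kronecker_mul, s1, t1, one_kronecker_one]
  have e2 : M * M' = 1 := mul_eq_one_comm.mp e1
  have e1' : Mᴴ * M'ᴴ = 1 := by rw [← conjTranspose_mul, e1, conjTranspose_one]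
  have e2' : M'ᴴ * Mᴴ = 1 := by rw [← conjTranspose_mul, e2, conjTranspose_one]
  have key : ∀ (f : C → ℝ) (g : D → ℝ), (S * dg f * Sᴴ) ⊗ₖ (T * dg g * Tᴴ)
      = M * dg (fun x : C × D => f x.1 * g x.2) * Mᴴ := by
    intro f g
    rw [mul_kronecker_mul, mul_kronecker_mul, dg_kron, hM, conjTranspose_kronecker]
  have s2' : a0 = S * dg (fun _ => 1) * Sᴴ := by rw [dg_one, Matrix.mul_one, s2]
  have t2' : b0 = T * dg (fun _ => 1) * Tᴴ := by rw [dg_one, Matrix.mul_one, t2]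
  have red : ∀ (N : Matrix (C × D) (C × D) ℂ) (u v : C × D → ℂ),
      qf (M * N * Mᴴ) (M'ᴴ *ᵥ u) (M'ᴴ *ᵥ v) = qf N u v := by
    intro N u v
    rw [qf_conj, conjTranspose_conjTranspose]
    simp only [← Matrix.mul_assoc, e1, Matrix.one_mul]
    rw [Matrix.mul_assoc, e1', Matrix.mul_one]
  have p00 : a0 ⊗ₖ b0 = M * 1 * Mᴴ := by
    rw [s2', t2', key, ← dg_one]; simp
  have p11 : a1 ⊗ₖ b1 = M * dg (fun x : C × D => l x.1 * m x.2) * Mᴴ := by
    rw [s3, t3, key]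
  have p01 : a0 ⊗ₖ b1 = M * dg (fun x : C × D => 1 * m x.2) * Mᴴ := by
    rw [s2', t3, key]
  have p10 : a1 ⊗ₖ b0 = M * dg (fun x : C × D => l x.1 * 1) * Mᴴ := by
    rw [s3, t2', key]
  have hB : B = M * (M' * B * M'ᴴ) * Mᴴ := by
    simp only [← Matrix.mul_assoc, e2, Matrix.one_mul]
    rw [Matrix.mul_assoc, e2', Matrix.mul_one]
  have G := geo_diag (M' * B * M'ᴴ) (fun x : C × D => l x.1 * m x.2)
    (fun x => mul_pos (hl _) (hm _))
    (fun u v => by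
      have := H1 (M'ᴴ *ᵥ u) (M'ᴴ *ᵥ v)
      rwa [p00, p11, red, red, hB, red] at this)
    (fun u v => by
      have := H2 (M'ᴴ *ᵥ u) (M'ᴴ *ᵥ v)
      rwa [p00, p11, red, red, hB, red] at this) (Mᴴ *ᵥ ξ)
  have hξ : ξ = M'ᴴ *ᵥ (Mᴴ *ᵥ ξ) := by rw [mulVec_mulVec, e2', one_mulVec]
  rw [hξ, p01, p10, red, red, hB, red, ← qf_add]
  have hpsd : (dg (fun x : C × D => 1 * m x.2) + dg (fun x : C × D => l x.1 * 1)
      - ((2 : ℝ) : ℂ) • dg (fun x : C × D => √(l x.1 * m x.2))).PosSemidef := by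
    have : dg (fun x : C × D => 1 * m x.2) + dg (fun x : C × D => l x.1 * 1)
        - ((2 : ℝ) : ℂ) • dg (fun x : C × D => √(l x.1 * m x.2))
        = dg (fun x : C × D => 1 * m x.2 + l x.1 * 1 - 2 * √(l x.1 * m x.2)) := by
      ext x y
      by_cases hxy : x = y
      · subst hxy; simp [dg]
      · simp [dg, hxy]
    rw [this]
    refine dg_psd fun x => ?_
    rw [Real.sqrt_mul (hl _).le]
    nlinarith [sq_nonneg (√(l x.1) - √(m x.2)), Real.mul_self_sqrt (hl x.1).le,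
      Real.mul_self_sqrt (hm x.2).le]
  have := qf_mono hpsd (Mᴴ *ᵥ ξ)
  rw [qf_smul] at this
  linarith

theorem kron_reg (a : Matrix C C ℂ) (b : Matrix D D ℂ) (t : ℝ) :
    (a + (t : ℂ) • (1 : Matrix C C ℂ)) ⊗ₖ (b + (t : ℂ) • (1 : Matrix D D ℂ))
      = a ⊗ₖ b + (t : ℂ) • (a ⊗ₖ (1 : Matrix D D ℂ) + (1 : Matrix C C ℂ) ⊗ₖ b)
        + ((t * t : ℝ) : ℂ) • (1 : Matrix (C × D) (C × D) ℂ) := by
  rw [add_kronecker, kronecker_add, kronecker_add, kronecker_smul, smul_kronecker, smul_kronecker,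
    kronecker_smul, one_kronecker_one, smul_add, smul_smul]
  push_cast
  abel

theorem geo {a0 a1 : Matrix C C ℂ} {b0 b1 : Matrix D D ℂ} (ha0 : a0.PosSemidef)
    (ha1 : a1.PosSemidef) (hb0 : b0.PosSemidef) (hb1 : b1.PosSemidef)
    (B : Matrix (C × D) (C × D) ℂ)
    (H1 : ∀ u v, 2 * qf B u v ≤ qf (a0 ⊗ₖ b0) u u + qf (a1 ⊗ₖ b1) v v)
    (H2 : ∀ u v, 2 * qf B u v ≤ qf (a1 ⊗ₖ b1) u u + qf (a0 ⊗ₖ b0) v v) (ξ : C × D → ℂ) :
    2 * qf B ξ ξ ≤ qf (a0 ⊗ₖ b1) ξ ξ + qf (a1 ⊗ₖ b0) ξ ξ := by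
  have mono : ∀ {a : Matrix C C ℂ} {b : Matrix D D ℂ}, a.PosSemidef → b.PosSemidef → ∀ t : ℝ,
      0 < t → ∀ u, qf (a ⊗ₖ b) u u ≤ qf ((a + (t : ℂ) • (1 : Matrix C C ℂ)) ⊗ₖ
        (b + (t : ℂ) • (1 : Matrix D D ℂ))) u u := by
    intro a b ha hb t ht u
    rw [kron_reg, qf_add, qf_add, qf_smul, qf_smul]
    have h1 := qf_nonneg ((ha.kronecker (PosSemidef.one (n := D))).add
      ((PosSemidef.one (n := C)).kronecker hb)) u
    have h2 := qf_nonneg (PosSemidef.one (n := C × D) (R := ℂ)) u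
    have h3 := mul_nonneg ht.le h1
    have h4 := mul_nonneg (mul_self_nonneg t) h2
    linarith
  have pdC : ∀ {a : Matrix C C ℂ}, a.PosSemidef → ∀ t : ℝ, 0 < t →
      (a + (t : ℂ) • (1 : Matrix C C ℂ)).PosDef := fun ha t ht =>
    PosDef.posSemidef_add ha (PosDef.one.smul (by exact_mod_cast ht))
  have pdD : ∀ {a : Matrix D D ℂ}, a.PosSemidef → ∀ t : ℝ, 0 < t →
      (a + (t : ℂ) • (1 : Matrix D D ℂ)).PosDef := fun ha t ht =>
    PosDef.posSemidef_add ha (PosDef.one.smul (by exact_mod_cast ht))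
  set c1 := qf (a0 ⊗ₖ (1 : Matrix D D ℂ) + (1 : Matrix C C ℂ) ⊗ₖ b1) ξ ξ
    + qf (a1 ⊗ₖ (1 : Matrix D D ℂ) + (1 : Matrix C C ℂ) ⊗ₖ b0) ξ ξ with hc1
  set c2 := qf (1 : Matrix (C × D) (C × D) ℂ) ξ ξ with hc2
  have key : ∀ t : ℝ, 0 < t → 2 * qf B ξ ξ ≤
      qf (a0 ⊗ₖ b1) ξ ξ + qf (a1 ⊗ₖ b0) ξ ξ + (t * c1 + 2 * (t * t) * c2) := by
    intro t ht
    have := geo_pd (pdC ha0 t ht) (pdC ha1 t ht) (pdD hb0 t ht) (pdD hb1 t ht) B
      (fun u v => (H1 u v).trans (add_le_add (mono ha0 hb0 t ht u) (mono ha1 hb1 t ht v)))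
      (fun u v => (H2 u v).trans (add_le_add (mono ha1 hb1 t ht u) (mono ha0 hb0 t ht v))) ξ
    rw [kron_reg, kron_reg] at this
    simp only [qf_add, qf_smul] at this hc1
    rw [hc1]
    linarith
  have hc : Filter.Tendsto (fun t : ℝ => qf (a0 ⊗ₖ b1) ξ ξ + qf (a1 ⊗ₖ b0) ξ ξ
      + (t * c1 + 2 * (t * t) * c2)) (nhdsWithin 0 (Set.Ioi 0))
      (nhds (qf (a0 ⊗ₖ b1) ξ ξ + qf (a1 ⊗ₖ b0) ξ ξ + (0 * c1 + 2 * (0 * 0) * c2))) :=
    (Continuous.tendsto (by fun_prop) 0).mono_left nhdsWithin_le_nhds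
  have := ge_of_tendsto hc (eventually_nhdsWithin_of_forall fun t ht => key t ht)
  simpa using this

end Vale.Agent.P372
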