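import Vale.Agent.P372.Proto

open Matrix
open scoped ComplexOrder MatrixOrder Kronecker ENNReal

set_option linter.unusedSectionVars false

namespace Vale.Agent.P372

open Classical

section
variable {R E L : Type} [Fintype R] [Fintype E] [Fintype L]

/-- block diagonal matrix -/
noncomputable def bd (f : R → L → Matrix E E ℂ) : Matrix (R × (E × L)) (R × (E × L)) ℂ :=
  Matrix.of fun x y => if x.1 = y.1 ∧ x.2.2 = y.2.2 then f x.1 x.2.2 x.2.1 y.2.1 else 0

theorem bd_unitary {f : R → L → Matrix E E ℂ} (h : ∀ r l, f r l * (f r l)ᴴ = 1)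
    {inst : DecidableEq (R × (E × L))} : bd f * (bd f)ᴴ = 1 := by
  ext ⟨r, e, l⟩ ⟨r', e', l'⟩
  have := congrFun (congrFun (h r l) e) e'
  simp only [Matrix.mul_apply, conjTranspose_apply, one_apply] at this
  simp only [bd, Matrix.mul_apply, conjTranspose_apply, of_apply, Fintype.sum_prod_type, one_apply,
    ite_and, ite_mul, zero_mul, Finset.sum_ite_irrel, Finset.sum_const_zero, Finset.sum_ite_eq,
    Finset.mem_univ, if_true, Prod.mk.injEq]
  by_cases h1 : r = r'
  · subst h1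
    by_cases h2 : l = l'
    · subst h2
      simp only [if_true, this]
    · simp [h2, Ne.symm h2]
  · simp [h1, Ne.symm h1]

theorem trace_bd_mul (f : R → L → Matrix E E ℂ) (X : Matrix (R × (E × L)) (R × (E × L)) ℂ) :
    (bd f * X).trace
      = ∑ r, ∑ l, (f r l * Matrix.of fun e e' => X (r, e, l) (r, e', l)).trace := by
  simp only [bd, Matrix.trace, diag_apply, Matrix.mul_apply, of_apply, Fintype.sum_prod_type,
    ite_and, ite_mul, zero_mul, Finset.sum_ite_irrel, Finset.sum_const_zero, Finset.sum_ite_eq,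
    Finset.mem_univ, if_true]
  refine Finset.sum_congr rfl fun r _ => ?_
  rw [Finset.sum_comm]

end

/-- test operators indexed by the two first key bits -/
noncomputable def blk {E : Type} (Z : Matrix E E ℂ) : Bool → Bool → Matrix E E ℂ
  | false, false => Z
  | true, true => -Z
  | _, _ => 1

theorem pt_pure {S E : Type} [Fintype S] [Fintype E] (M : Matrix S S ℂ) (ψ : S × E → ℂ) :
    pt M (vecMulVec ψ (star ψ))
      = ((Matrix.of fun x e => ψ (x, e))ᴴ * M * Matrix.of fun x e => ψ (x, e))ᵀ := by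
  ext e e'
  simp only [pt_apply, vecMulVec_apply, transpose_apply, Matrix.mul_apply, conjTranspose_apply,
    of_apply, Pi.star_apply, Finset.sum_mul]
  rw [Finset.sum_comm]
  exact Finset.sum_congr rfl fun _ _ => Finset.sum_congr rfl fun _ _ => by ring

theorem sum_bits {K A B M : Type} [Fintype K] [AddCommMonoid M] (b : K → Bool)
    (P : K → Matrix A A ℂ) (Q : K → Matrix B B ℂ)
    (φ : Bool → Bool → Matrix (A × B) (A × B) ℂ →+ M) :
    ∑ k, ∑ k', φ (b k) (b k') (P k ⊗ₖ Q k') = ∑ s, ∑ t, φ s t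
      ((∑ k, if b k = s then P k else 0) ⊗ₖ (∑ k, if b k = t then Q k else 0)) := by
  have : ∀ s t, φ s t ((∑ k, if b k = s then P k else 0) ⊗ₖ (∑ k, if b k = t then Q k else 0))
      = ∑ k, ∑ k', if b k = s then (if b k' = t then φ s t (P k ⊗ₖ Q k') else 0) else 0 := by
    intro s t
    rw [sum_kron_left, map_sum]
    refine Finset.sum_congr rfl fun k _ => ?_
    rw [sum_kron_right, map_sum]
    refine Finset.sum_congr rfl fun k' _ => ?_
    split_ifs <;> simp
  simp only [this]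
  symm
  calc _ = ∑ s, ∑ k, ∑ t, ∑ k',
        if b k = s then (if b k' = t then φ s t (P k ⊗ₖ Q k') else 0) else 0 :=
        Finset.sum_congr rfl fun s _ => Finset.sum_comm
    _ = ∑ k, ∑ s, ∑ t, ∑ k',
        if b k = s then (if b k' = t then φ s t (P k ⊗ₖ Q k') else 0) else 0 := Finset.sum_comm
    _ = _ := by
      refine Finset.sum_congr rfl fun k _ => ?_
      simp only [Finset.sum_ite_irrel, Finset.sum_const_zero, Finset.sum_ite_eq, Finset.mem_univ,
        if_true]
      rw [Finset.sum_comm]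
      simp only [Finset.sum_ite_eq, Finset.mem_univ, if_true]

/-- the functional `M ↦ Re tr (Z Ψᴴ M Ψ)` -/
noncomputable def val {S E : Type} [Fintype S] [Fintype E] (Ψ : Matrix S E ℂ) (Z : Matrix E E ℂ) :
    Matrix S S ℂ →+ ℝ where
  toFun M := (Z * (Ψᴴ * M * Ψ)).trace.re
  map_zero' := by simp
  map_add' M N := by simp [Matrix.mul_add, Matrix.add_mul]

theorem val_apply {S E : Type} [Fintype S] [Fintype E] (Ψ : Matrix S E ℂ) (Z : Matrix E E ℂ)
    (M : Matrix S S ℂ) : val Ψ Z M = (Z * (Ψᴴ * M * Ψ)).trace.re := rfl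

theorem ideal_zero {ℓ : ℕ} (i0 : Fin ℓ) {E L : Type} [Fintype E] [Fintype L]
    (Z : L → Matrix E E ℂ) (σ : Matrix (E × L) (E × L) ℂ)
    {inst : DecidableEq ((Fin ℓ → Bool) × (Fin ℓ → Bool))} :
    (bd (fun (r : (Fin ℓ → Bool) × (Fin ℓ → Bool)) l => blk (Z l) (r.1 i0) (r.2 i0)) *
      ∑ z : Fin ℓ → Bool, Matrix.single (z, z) (z, z) (1 : ℂ) ⊗ₖ σ).trace = 0 := by
  rw [Matrix.mul_sum, trace_sum]
  set c : Bool → ℂ := fun s => ∑ l, (blk (Z l) s s * Matrix.of fun e e' => σ (e, l) (e', l)).trace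
    with hc
  have h1 : ∀ z : Fin ℓ → Bool,
      (bd (fun (r : (Fin ℓ → Bool) × (Fin ℓ → Bool)) l => blk (Z l) (r.1 i0) (r.2 i0)) *
        (Matrix.single (z, z) (z, z) (1 : ℂ) ⊗ₖ σ)).trace = c (z i0) := by
    intro z
    rw [trace_bd_mul, Finset.sum_eq_single (z, z)]
    · simp [hc]
    · intro r _ hr
      refine Finset.sum_eq_zero fun l _ => ?_
      have : (Matrix.of fun e e' => (Matrix.single (z, z) (z, z) (1 : ℂ) ⊗ₖ σ) (r, e, l) (r, e', l))
          = 0 := by
        ext e e'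
        simp [Matrix.single, Ne.symm hr]
      rw [this, Matrix.mul_zero, trace_zero]
    · simp
  have h2 : ∀ s, c (!s) = -c s := by
    intro s
    cases s <;> simp [hc, blk]
  simp only [h1]
  have h3 : ∑ z : Fin ℓ → Bool, c (z i0) = ∑ z : Fin ℓ → Bool, -c (z i0) := by
    refine Fintype.sum_equiv ⟨fun z i => !z i, fun z i => !z i, fun z => by simp, fun z => by simp⟩
      _ _ fun z => ?_
    simp [h2]
  rw [Finset.sum_neg_distrib] at h3
  linear_combination h3 / 2

theorem test_le {ℓ : ℕ} (i0 : Fin ℓ) {A B E : Type} [Fintype A] [Fintype B] [Fintype E]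
    (p : Prot (Fin ℓ → Bool) A B) (ψ : (A × B) × E → ℂ) {ε : ℝ}
    (h : HasError p (vecMulVec ψ (star ψ)) ε)
    (P : p.Leaf → (Fin ℓ → Bool) → Matrix A A ℂ) (Q : p.Leaf → (Fin ℓ → Bool) → Matrix B B ℂ)
    (ho : ∀ l k k', p.out (vecMulVec ψ (star ψ)) l k k'
      = pt (P l k ⊗ₖ Q l k') (vecMulVec ψ (star ψ)))
    (Z : p.Leaf → Matrix E E ℂ) (hZ : ∀ l, Z l * (Z l)ᴴ = 1) :
    ∑ l, ∑ s, ∑ t, val (Matrix.of fun x e => ψ (x, e)) (blk (Z l) s t)
      ((∑ k, if k i0 = s then P l k else 0) ⊗ₖ (∑ k, if k i0 = t then Q l k else 0)) ≤ ε := by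
  obtain ⟨σ, -, hσ⟩ := h
  have hb : ∀ l s t, (blk (Z l) s t)ᵀ = blk (Z l)ᵀ s t := by
    intro l s t
    cases s <;> cases t <;> simp [blk]
  have hu : ∀ l s t, blk (Z l)ᵀ s t * (blk (Z l)ᵀ s t)ᴴ = 1 := by
    intro l s t
    have h1 : (Z l)ᵀ * ((Z l)ᵀ)ᴴ = 1 := by
      have h2 := congrArg transpose (mul_eq_one_comm.mp (hZ l))
      rw [transpose_mul, transpose_one] at h2
      exact h2
    cases s <;> cases t <;> simp [blk, h1]
  refine le_trans (le_of_eq ?_) ((re_trace_mul_le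
    (bd fun (r : (Fin ℓ → Bool) × (Fin ℓ → Bool)) l => blk (Z l)ᵀ (r.1 i0) (r.2 i0)) _
    (bd_unitary fun r l => hu l _ _)).trans hσ)
  rw [Matrix.mul_sub, Matrix.mul_smul, trace_sub, trace_smul, ideal_zero, smul_zero, sub_zero,
    trace_bd_mul]
  conv_rhs => rw [Finset.sum_comm, Complex.re_sum]
  refine Finset.sum_congr rfl fun l _ => ?_
  rw [← sum_bits (fun k : Fin ℓ → Bool => k i0) (P l) (Q l)
    (fun s t => val (Matrix.of fun x e => ψ (x, e)) (blk (Z l) s t)), Fintype.sum_prod_type,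
    Complex.re_sum]
  refine Finset.sum_congr rfl fun k _ => ?_
  rw [Complex.re_sum]
  refine Finset.sum_congr rfl fun k' _ => ?_
  have : (Matrix.of fun e e' => p.final (vecMulVec ψ (star ψ)) ((k, k'), e, l) ((k, k'), e', l))
      = p.out (vecMulVec ψ (star ψ)) l k k' := by
    ext e e'
    simp [Prot.final]
  rw [this, ho, pt_pure, ← hb, ← transpose_mul, trace_transpose, trace_mul_comm, val_apply]

theorem half_le {ℓ : ℕ} (i0 : Fin ℓ) {A B E : Type} [Fintype A] [Fintype B] [Fintype E]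
    {ρ : Matrix (A × B) (A × B) ℂ} (hl : Link ρ) (ht : ρ.trace = 1) {ψ : (A × B) × E → ℂ}
    (hψ : Purifies ψ ρ) (p : Prot (Fin ℓ → Bool) A B) (hv : p.Valid) {ε : ℝ}
    (h : HasError p (vecMulVec ψ (star ψ)) ε) : 1 / 2 ≤ ε := by
  obtain ⟨P, Q, hP, hQ, hs, ho⟩ := effects p hv
  set Ψ : Matrix (A × B) E ℂ := Matrix.of fun x e => ψ (x, e) with hΨ
  have hρ : ρ = Ψ * Ψᴴ := by
    ext x y
    rw [hψ x y]
    simp [Matrix.mul_apply, hΨ]
  set P' : p.Leaf → Bool → Matrix A A ℂ := fun l s => ∑ k, if k i0 = s then P l k else 0 with hP'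
  set Q' : p.Leaf → Bool → Matrix B B ℂ := fun l s => ∑ k, if k i0 = s then Q l k else 0 with hQ'
  have pP : ∀ l s, (P' l s).PosSemidef := fun l s => posSemidef_sum _ fun k _ => by
    split_ifs
    exacts [hP l k, PosSemidef.zero]
  have pQ : ∀ l s, (Q' l s).PosSemidef := fun l s => posSemidef_sum _ fun k _ => by
    split_ifs
    exacts [hQ l k, PosSemidef.zero]
  choose Z hZ hZ' using fun l => hl.test Ψ hρ (pP l false) (pP l true) (pQ l false) (pQ l true)
  set q : p.Leaf → Bool → Bool → ℝ := fun l s t => (Ψᴴ * (P' l s ⊗ₖ Q' l t) * Ψ).trace.re with hq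
  have T := fun (Z : p.Leaf → Matrix E E ℂ) (hZ : ∀ l, Z l * (Z l)ᴴ = 1) =>
    test_le i0 p ψ h P Q (fun l k k' => ho E _ l k k') Z hZ
  have T1 := T Z hZ
  have T2 := T (fun _ => 1) (fun _ => by simp)
  have T3 := T (fun _ => -1) (fun _ => by simp)
  have tot : ∑ l, ∑ s, ∑ t, q l s t = 1 := by
    have h1 : ∀ l, ∑ s, ∑ t, q l s t = ∑ k, ∑ k', val Ψ 1 (P l k ⊗ₖ Q l k') := by
      intro l
      rw [sum_bits (fun k : Fin ℓ → Bool => k i0) (P l) (Q l) (fun _ _ => val Ψ 1)]
      simp only [val_apply, Matrix.one_mul, hq, hP', hQ']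
    simp only [h1, ← map_sum]
    rw [hs, val_apply, Matrix.one_mul, Matrix.mul_one, trace_mul_comm, ← hρ, ht, Complex.one_re]
  have S1 : ∑ l, (q l false false + q l true true) ≤ ε := by
    refine le_trans (Finset.sum_le_sum fun l _ => ?_) T1
    have := hZ' l
    simp only [Fintype.sum_bool, blk, val_apply, Matrix.one_mul, Matrix.neg_mul, trace_neg,
      Complex.neg_re]
    simp only [hq]
    linarith
  have S2 : ∑ l, 2 * (q l false true + q l true false) ≤ ε + ε := by
    refine le_trans (le_of_eq ?_) (add_le_add T2 T3)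
    rw [← Finset.sum_add_distrib]
    refine Finset.sum_congr rfl fun l _ => ?_
    simp only [Fintype.sum_bool, blk, val_apply, Matrix.one_mul, Matrix.neg_mul, trace_neg,
      Complex.neg_re, neg_neg]
    simp only [hq]
    ring
  simp only [Fintype.sum_bool, Finset.sum_add_distrib, ← Finset.mul_sum] at tot S1 S2
  linarith

theorem keyRate_zero {A B E : Type} [Fintype A] [Fintype B] [Fintype E]
    {ρ : Matrix (A × B) (A × B) ℂ} (hl : Link ρ) (ht : ρ.trace = 1) {ψ : (A × B) × E → ℂ}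
    (hψ : Purifies ψ ρ) : keyRate ψ = 0 := by
  refine le_antisymm (sSup_le ?_) bot_le
  rintro R ⟨ℓ, p, ε, hv, he, hε, rfl⟩
  have h0 : ∀ n, ε n < 1 / 2 → ℓ n = 0 := by
    intro n hn
    by_contra hne
    refine absurd (half_le ⟨0, Nat.pos_of_ne_zero hne⟩ (hl.pow (ι := Fin n)) ?_ ?_ (p n) (hv n)
      (he n)) (not_le.mpr hn)
    · have h1 : ∏ _i : Fin n, ρ.trace = 1 := by simp [ht]
      rw [← h1]
      simp only [Matrix.trace, diag_apply, of_apply, Fintype.sum_prod_type]
      rw [Fintype.prod_sum]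
      refine Finset.sum_congr rfl fun a _ => ?_
      rw [Fintype.prod_sum]
    · intro x y
      simp only [of_apply, hψ _ _, star_prod, ← Finset.prod_mul_distrib]
      rw [Fintype.prod_sum]
  have h1 : ∀ᶠ n in Filter.atTop, (ℓ n : ℝ≥0∞) / n = 0 := by
    filter_upwards [hε.eventually (gt_mem_nhds (by norm_num : (0 : ℝ) < 1 / 2))] with n hn
    simp [h0 n hn]
  rw [Filter.liminf_congr h1, Filter.liminf_const]

end Vale.Agent.P372
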