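import Vale.Agent.P372.Cover
import Mathlib.RingTheory.Ideal.GoingUp
import Mathlib.Analysis.Complex.Polynomial.Basic
import Mathlib.LinearAlgebra.Matrix.ToLinearEquiv
import Mathlib.Tactic.NormNum.Prime
import Mathlib.RingTheory.Int.Basic
import Mathlib.Data.Nat.Prime.Int

open Matrix Polynomial

namespace Vale.Agent.P372

theorem transfer {S k I : Type} [CommRing S] [Field k] [Fintype I] (ι : S →+* ℂ)
    (hι : Function.Injective ι) (φ : S →+* k) (hφ : Function.Surjective φ) {n : ℕ}
    (A : I → Fin n → S) (q : Fin n → ℂ) (hq : q ≠ 0) (h : ∀ i, ∑ m, ι (A i m) * q m = 0) :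
    ∃ r : Fin n → k, r ≠ 0 ∧ ∀ i, ∑ m, φ (A i m) * r m = 0 := by
  classical
  by_contra hne
  push Not at hne
  have hker : LinearMap.ker (Matrix.toLin' ((Matrix.of A).map φ)) = ⊥ := by
    rw [LinearMap.ker_eq_bot']
    intro r hr
    by_contra h0
    obtain ⟨i, hi⟩ := hne r h0
    exact hi (congrFun hr i)
  obtain ⟨g, hg⟩ := LinearMap.exists_leftInverse_of_injective _ hker
  have h1 : LinearMap.toMatrix' g * (Matrix.of A).map φ = 1 := by
    rw [← LinearMap.toMatrix'_toLin' ((Matrix.of A).map φ), ← LinearMap.toMatrix'_comp, hg,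
      LinearMap.toMatrix'_id]
  choose B hB using fun (i : Fin n) (j : I) => hφ (LinearMap.toMatrix' g i j)
  have h2 : (Matrix.of B * Matrix.of A).map φ = 1 := by
    rw [Matrix.map_mul, ← h1]
    congr 1
    ext i j
    exact hB i j
  have h3 : (Matrix.of B * Matrix.of A).det ≠ 0 := by
    intro e
    have := φ.map_det (Matrix.of B * Matrix.of A)
    rw [e, map_zero, RingHom.mapMatrix_apply, h2, det_one] at this
    exact zero_ne_one this
  have h4 : ((Matrix.of B * Matrix.of A).map ι).det ≠ 0 := by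
    intro e
    have := ι.map_det (Matrix.of B * Matrix.of A)
    rw [RingHom.mapMatrix_apply, e] at this
    exact h3 (hι (this.trans (map_zero ι).symm))
  refine h4 (Matrix.exists_mulVec_eq_zero_iff.mp ⟨q, hq, ?_⟩)
  have h5 : (Matrix.of A).map ι *ᵥ q = 0 := funext h
  rw [Matrix.map_mul, ← mulVec_mulVec, h5, mulVec_zero]

theorem exists_residue (p : ℕ) (hp : p.Prime) :
    ∃ (k : Type) (_ : Field k) (_ : CharP k p) (φ : integralClosure ℤ ℂ →+* k),
      Function.Surjective φ ∧ ∀ (G : ℤ[X]), G.Monic → ∀ r : ℤ, (p : ℤ) ∣ G.eval r →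
        ∃ α : integralClosure ℤ ℂ, aeval α G = 0 ∧ φ α = r := by
  have hmax : (Ideal.span {(p : ℤ)}).IsMaximal :=
    PrincipalIdealRing.isMaximal_of_irreducible (Nat.prime_iff_prime_int.mp hp).irreducible
  obtain ⟨Q, hQ, e⟩ := Ideal.exists_ideal_over_maximal_of_isIntegral
    (S := integralClosure ℤ ℂ) (Ideal.span {(p : ℤ)}) (by
      rw [(RingHom.injective_iff_ker_eq_bot _).mp
        (RingHom.injective_int (algebraMap ℤ (integralClosure ℤ ℂ)))]
      exact bot_le)
  let _ := Ideal.Quotient.field Q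
  have hmem : ∀ z : ℤ, (p : ℤ) ∣ z → (z : integralClosure ℤ ℂ) ∈ Q := by
    intro z hz
    have : z ∈ Q.comap (algebraMap ℤ (integralClosure ℤ ℂ)) := by
      rw [e]; exact Ideal.mem_span_singleton.mpr hz
    simpa using this
  have hc : CharP (integralClosure ℤ ℂ ⧸ Q) p := by
    refine (CharP.charP_iff_prime_eq_zero hp).mpr ?_
    have := Ideal.Quotient.eq_zero_iff_mem.mpr (hmem p dvd_rfl)
    simpa using this
  refine ⟨_, inferInstance, hc, Ideal.Quotient.mk Q, Ideal.Quotient.mk_surjective,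
    fun G hG r hr => ?_⟩
  have hm : (G.map (algebraMap ℤ ℂ)).Monic := hG.map _
  have hs := (IsAlgClosed.splits (G.map (algebraMap ℤ ℂ))).eval_eq_prod_roots_of_monic hm (r : ℂ)
  have hroot : ∀ x ∈ (G.map (algebraMap ℤ ℂ)).roots, aeval x G = 0 := by
    intro x hx
    have := (mem_roots hm.ne_zero).mp hx
    rwa [IsRoot.def, eval_map_algebraMap] at this
  generalize (G.map (algebraMap ℤ ℂ)).roots = s at hs hroot
  lift s to Multiset (integralClosure ℤ ℂ) using fun x hx => ⟨G, hG, hroot x hx⟩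
  have h1 : (s.map fun x => (r : integralClosure ℤ ℂ) - x).prod = ((G.eval r : ℤ) : _) := by
    apply Subtype.ext
    have h2 : eval (r : ℂ) (G.map (algebraMap ℤ ℂ)) = ((G.eval r : ℤ) : ℂ) := by
      rw [eval_map_algebraMap]
      exact aeval_algebraMap_apply_eq_algebraMap_eval (A := ℂ) r G
    rw [h2, Multiset.map_map] at hs
    have h3 := map_multiset_prod (integralClosure ℤ ℂ).val
      (s.map fun x => (r : integralClosure ℤ ℂ) - x)
    rw [Multiset.map_map] at h3
    simp only [Subalgebra.coe_val] at h3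
    rw [h3]
    simpa using hs.symm
  have h4 := hmem _ hr
  rw [← h1, hQ.isPrime.multiset_prod_mem_iff_exists_mem] at h4
  obtain ⟨y, hy, hyQ⟩ := h4
  obtain ⟨α, hα, rfl⟩ := Multiset.mem_map.mp hy
  refine ⟨α, ?_, ?_⟩
  · apply Subtype.ext
    have := hroot α (Multiset.mem_map_of_mem _ hα)
    exact (aeval_algHom_apply (integralClosure ℤ ℂ).val α G).symm.trans this
  · have := Ideal.Quotient.eq.mpr hyQ
    simpa using this.symm

theorem cover_C {S k : Type} [CommRing S] [Field k] [CharP k 9655123] (ι : S →+* ℂ)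
    (hι : Function.Injective ι) (φ : S →+* k) (hφ : Function.Surjective φ)
    (x : Fin 15 → Fin 3 → S) (hx : ∀ i a, φ (x i a) = ptsN i a) (q : Fin 6 → ℂ) (q' : Fin 10 → ℂ)
    (h : ∀ i : Fin 15, ∑ m, mono (m2 m) (fun a => ι (x i a)) * q m = 0 ∨
      ∑ m, mono (m3 m) (fun a => ι (x i a)) * q' m = 0) : q = 0 ∨ q' = 0 := by
  classical
  by_contra hne
  push Not at hne
  obtain ⟨r, r0, hr⟩ := transfer ι hι φ hφ
    (fun (i : {i // ∑ m, mono (m2 m) (fun a => ι (x i a)) * q m = 0}) m => mono (m2 m) (x i.1))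
    q hne.1 (fun i => by simpa only [mono, map_prod] using i.2)
  obtain ⟨r', r0', hr'⟩ := transfer ι hι φ hφ
    (fun (i : {i // ∑ m, mono (m3 m) (fun a => ι (x i a)) * q' m = 0}) m => mono (m3 m) (x i.1))
    q' hne.2 (fun i => by simpa only [mono, map_prod] using i.2)
  refine (cover_k r r' fun i => (h i).imp (fun e => ?_) (fun e => ?_)).elim r0 r0'
  · simpa only [mono, map_prod, hx] using hr ⟨i, e⟩
  · simpa only [mono, map_prod, hx] using hr' ⟨i, e⟩

end Vale.Agent.P372
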