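import Vale.Agent.P372.Geo

open Matrix
open scoped ComplexOrder MatrixOrder Kronecker

set_option linter.unusedSectionVars false

namespace Vale.Agent.P372

section
variable {K K' A A' B B' C D X Y E : Type} [Fintype K] [Fintype K'] [Fintype A] [Fintype A']
  [Fintype B] [Fintype B'] [Fintype C] [Fintype D] [Fintype X] [Fintype Y] [Fintype E]

/-- the Gram matrix of the family is invariant under transposition of the first factor -/
def Sym (W : K → Matrix A C ℂ) : Prop :=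
  ∀ a a' c c', ∑ k, W k a c * star (W k a' c') = ∑ k, W k a' c * star (W k a c')

/-- exchange relation between two pairs of families -/
def Swap (N0 N1 M0 M1 : K → Matrix X C ℂ) : Prop :=
  ∀ i j c c', ∑ t, N0 t i c * star (N1 t j c') = ∑ t, M1 t j c * star (M0 t i c')

theorem Sym.swap {W : K → Matrix A C ℂ} (h : Sym W) (A0 A1 : Matrix A' A ℂ) :
    Swap (fun k => A0 * W k) (fun k => A1 * W k) (fun k => A0.map star * W k)
      (fun k => A1.map star * W k) := by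
  intro i j c c'
  have l : ∑ t, (A0 * W t) i c * star ((A1 * W t) j c')
      = ∑ a, ∑ a', A0 i a * star (A1 j a') * ∑ t, W t a c * star (W t a' c') := by
    simp only [Matrix.mul_apply, star_sum, star_mul', Finset.sum_mul_sum]
    simp only [Finset.mul_sum]
    rw [Finset.sum_comm]
    refine Finset.sum_congr rfl fun a _ => ?_
    rw [Finset.sum_comm]
    exact Finset.sum_congr rfl fun a' _ => Finset.sum_congr rfl fun t _ => by ring
  have r : ∑ t, (A1.map star * W t) j c * star ((A0.map star * W t) i c')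
      = ∑ a', ∑ a, A0 i a * star (A1 j a') * ∑ t, W t a' c * star (W t a c') := by
    simp only [Matrix.mul_apply, star_sum, star_mul', Finset.sum_mul_sum, map_apply, star_star]
    simp only [Finset.mul_sum]
    rw [Finset.sum_comm]
    refine Finset.sum_congr rfl fun a _ => ?_
    rw [Finset.sum_comm]
    exact Finset.sum_congr rfl fun a' _ => Finset.sum_congr rfl fun t _ => by ring
  rw [l, r, Finset.sum_comm]
  exact Finset.sum_congr rfl fun a' _ => Finset.sum_congr rfl fun a _ => by rw [h]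

theorem Swap.kron {N0 N1 M0 M1 : K → Matrix X C ℂ} {N0' N1' M0' M1' : K' → Matrix Y D ℂ}
    (h : Swap N0 N1 M0 M1) (h' : Swap N0' N1' M0' M1') :
    Swap (fun t : K × K' => N0 t.1 ⊗ₖ N0' t.2) (fun t => N1 t.1 ⊗ₖ N1' t.2)
      (fun t => M0 t.1 ⊗ₖ M0' t.2) (fun t => M1 t.1 ⊗ₖ M1' t.2) := by
  intro i j c c'
  have := congrArg₂ (· * ·) (h i.1 j.1 c.1 c'.1) (h' i.2 j.2 c.2 c'.2)
  simp only [Finset.sum_mul_sum] at this
  simp only [Fintype.sum_prod_type, kroneckerMap_apply, star_mul']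
  refine Eq.trans ?_ (this.trans ?_) <;>
    exact Finset.sum_congr rfl fun _ _ => Finset.sum_congr rfl fun _ _ => by ring

theorem Swap.pair {N0 N1 M0 M1 : K → Matrix X C ℂ} (h : Swap N0 N1 M0 M1) (U : Matrix X X ℂ) :
    ∑ t, (N1 t)ᴴ * U * N0 t = ∑ t, (M0 t)ᴴ * Uᵀ * M1 t := by
  ext c' c
  have l : (∑ t, (N1 t)ᴴ * U * N0 t) c' c
      = ∑ i, ∑ j, U j i * ∑ t, N0 t i c * star (N1 t j c') := by
    simp only [Matrix.sum_apply, Matrix.mul_apply, conjTranspose_apply, Finset.sum_mul,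
      Finset.mul_sum]
    rw [Finset.sum_comm]
    refine Finset.sum_congr rfl fun a _ => ?_
    rw [Finset.sum_comm]
    exact Finset.sum_congr rfl fun a' _ => Finset.sum_congr rfl fun t _ => by ring
  have r : (∑ t, (M0 t)ᴴ * Uᵀ * M1 t) c' c
      = ∑ j, ∑ i, U j i * ∑ t, M1 t j c * star (M0 t i c') := by
    simp only [Matrix.sum_apply, Matrix.mul_apply, conjTranspose_apply, Finset.sum_mul,
      Finset.mul_sum, transpose_apply]
    rw [Finset.sum_comm]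
    refine Finset.sum_congr rfl fun a _ => ?_
    rw [Finset.sum_comm]
    exact Finset.sum_congr rfl fun a' _ => Finset.sum_congr rfl fun t _ => by ring
  rw [l, r, Finset.sum_comm]
  exact Finset.sum_congr rfl fun a' _ => Finset.sum_congr rfl fun a _ => by rw [h]

theorem amgm [DecidableEq E] (x y : E → ℂ) : 2 * qf 1 x y ≤ qf 1 x x + qf 1 y y := by
  have h := qf_nonneg (PosSemidef.one (n := E) (R := ℂ)) (x - y)
  have h2 := qf_star (1 : Matrix E E ℂ) x y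
  rw [conjTranspose_one] at h2
  simp only [qf, one_mulVec, star_sub, sub_dotProduct, dotProduct_sub, Complex.sub_re] at h h2 ⊢
  linarith

theorem pair_le [DecidableEq E] [DecidableEq X] [DecidableEq C] (N0 N1 : K → Matrix X C ℂ)
    {W0 W1 : Matrix E X ℂ} (h0 : (1 - W0ᴴ * W0).PosSemidef) (h1 : (1 - W1ᴴ * W1).PosSemidef)
    (u v : C → ℂ) : 2 * qf (∑ t, (N1 t)ᴴ * (W1ᴴ * W0) * N0 t) u v
      ≤ qf (∑ t, (N1 t)ᴴ * (1 : Matrix X X ℂ) * N1 t) u u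
        + qf (∑ t, (N0 t)ᴴ * (1 : Matrix X X ℂ) * N0 t) v v := by
  rw [qf_sum, qf_sum, qf_sum, Finset.mul_sum, ← Finset.sum_add_distrib]
  refine Finset.sum_le_sum fun t _ => ?_
  rw [← qf_conj, ← qf_conj, ← qf_conj]
  have a := amgm (W1 *ᵥ (N1 t *ᵥ u)) (W0 *ᵥ (N0 t *ᵥ v))
  rw [qf_conj 1 W1 W0, qf_conj 1 W1 W1, qf_conj 1 W0 W0, Matrix.mul_one, Matrix.mul_one] at a
  have b := qf_mono h0 (N0 t *ᵥ v)
  have c := qf_mono h1 (N1 t *ᵥ u)
  linarith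

theorem sum_kron_gram [DecidableEq X] [DecidableEq Y] (N : K → Matrix X C ℂ)
    (N' : K' → Matrix Y D ℂ) :
    ∑ t : K × K', (N t.1 ⊗ₖ N' t.2)ᴴ * (1 : Matrix (X × Y) (X × Y) ℂ) * (N t.1 ⊗ₖ N' t.2)
      = (∑ k, (N k)ᴴ * N k) ⊗ₖ (∑ k, (N' k)ᴴ * N' k) := by
  ext x y
  simp only [Matrix.mul_one, conjTranspose_kronecker, ← mul_kronecker_mul, Matrix.sum_apply,
    kroneckerMap_apply, Fintype.sum_prod_type, Finset.sum_mul_sum]

/-- states obtained by linking two states invariant under transposition of one factor -/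
def Link (ρ : Matrix (A × B) (A × B) ℂ) : Prop :=
  ∃ (K K' C D : Type) (_ : Fintype K) (_ : Fintype K') (_ : Fintype C) (_ : Fintype D)
    (W : K → Matrix A C ℂ) (V : K' → Matrix B D ℂ) (ξ : C × D → ℂ), Sym W ∧ Sym V ∧
    ρ = ∑ t : K × K', vecMulVec ((W t.1 ⊗ₖ V t.2) *ᵥ ξ) (star ((W t.1 ⊗ₖ V t.2) *ᵥ ξ))

theorem trace_vec [DecidableEq X] (M : Matrix X X ℂ) (x : X → ℂ) :
    (M * vecMulVec x (star x)).trace.re = qf M x x := by
  rw [mul_vecMulVec, trace_vecMulVec, dotProduct_comm, qf]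

theorem conj_contr [DecidableEq X] {W : Matrix E X ℂ} (h : (1 - Wᴴ * W).PosSemidef) :
    (1 - (W.map star)ᴴ * W.map star).PosSemidef := by
  have : 1 - (W.map star)ᴴ * W.map star = (1 - Wᴴ * W)ᵀ := by
    rw [transpose_sub, transpose_one, transpose_mul]
    congr 2
    ext i j
    simp
  rw [this]
  exact h.transpose

theorem Link.ineq [DecidableEq A] [DecidableEq B] [DecidableEq A'] [DecidableEq B'] [DecidableEq E]
    {ρ : Matrix (A × B) (A × B) ℂ} (h : Link ρ) (A0 A1 : Matrix A' A ℂ) (B0 B1 : Matrix B' B ℂ)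
    {W0 W1 : Matrix E (A' × B') ℂ} (h0 : (1 - W0ᴴ * W0).PosSemidef)
    (h1 : (1 - W1ᴴ * W1).PosSemidef) :
    2 * ((A1 ⊗ₖ B1)ᴴ * (W1ᴴ * W0) * (A0 ⊗ₖ B0) * ρ).trace.re ≤
      (((A0ᴴ * A0) ⊗ₖ (B1ᴴ * B1)) * ρ).trace.re + (((A1ᴴ * A1) ⊗ₖ (B0ᴴ * B0)) * ρ).trace.re := by
  classical
  obtain ⟨K, K', C, D, _, _, _, _, W, V, ξ, hW, hV, rfl⟩ := h
  have tr : ∀ (L0 L1 : Matrix A' A ℂ) (R0 R1 : Matrix B' B ℂ) (U : Matrix (A' × B') (A' × B') ℂ),
      ((L1 ⊗ₖ R1)ᴴ * U * (L0 ⊗ₖ R0) * ∑ t : K × K', vecMulVec ((W t.1 ⊗ₖ V t.2) *ᵥ ξ)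
        (star ((W t.1 ⊗ₖ V t.2) *ᵥ ξ))).trace.re
      = qf (∑ t : K × K', ((L1 * W t.1) ⊗ₖ (R1 * V t.2))ᴴ * U * ((L0 * W t.1) ⊗ₖ (R0 * V t.2)))
        ξ ξ := by
    intro L0 L1 R0 R1 U
    rw [Matrix.mul_sum, trace_sum, Complex.re_sum, qf_sum]
    refine Finset.sum_congr rfl fun t _ => ?_
    rw [trace_vec, qf_conj, mul_kronecker_mul, mul_kronecker_mul, conjTranspose_mul]
    simp only [Matrix.mul_assoc]
  have g : ∀ (L : Matrix A' A ℂ) (R : Matrix B' B ℂ),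
      (Lᴴ * L) ⊗ₖ (Rᴴ * R) = (L ⊗ₖ R)ᴴ * (1 : Matrix (A' × B') (A' × B') ℂ) * (L ⊗ₖ R) := by
    intro L R
    rw [Matrix.mul_one, conjTranspose_kronecker, mul_kronecker_mul]
  rw [g, g, tr, tr, tr, sum_kron_gram (fun k => A0 * W k) (fun k => B1 * V k),
    sum_kron_gram (fun k => A1 * W k) (fun k => B0 * V k)]
  have pa : ∀ L : Matrix A' A ℂ, (∑ k, (L * W k)ᴴ * (L * W k)).PosSemidef := fun L =>
    posSemidef_sum _ fun k _ => posSemidef_conjTranspose_mul_self _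
  have pb : ∀ R : Matrix B' B ℂ, (∑ k, (R * V k)ᴴ * (R * V k)).PosSemidef := fun R =>
    posSemidef_sum _ fun k _ => posSemidef_conjTranspose_mul_self _
  refine geo (pa A0) (pa A1) (pb B0) (pb B1) _ (fun u v => ?_) (fun u v => ?_) ξ
  · rw [((hW.swap A0 A1).kron (hV.swap B0 B1)).pair,
      ← sum_kron_gram (fun k => A0 * W k) (fun k => B0 * V k),
      ← sum_kron_gram (fun k => A1 * W k) (fun k => B1 * V k),
      ((hW.swap A0 A0).kron (hV.swap B0 B0)).pair, ((hW.swap A1 A1).kron (hV.swap B1 B1)).pair,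
      transpose_one]
    have e : (W1ᴴ * W0)ᵀ = (W0.map star)ᴴ * W1.map star := by
      rw [transpose_mul]
      congr 1
      ext i j
      simp
    rw [e]
    exact pair_le _ _ (conj_contr h1) (conj_contr h0) u v
  · rw [← sum_kron_gram (fun k => A0 * W k) (fun k => B0 * V k),
      ← sum_kron_gram (fun k => A1 * W k) (fun k => B1 * V k)]
    exact pair_le _ _ h0 h1 u v

/-- Eve can tell the two agreeing key values apart -/
theorem Link.test [DecidableEq A] [DecidableEq B] [DecidableEq E]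
    {ρ : Matrix (A × B) (A × B) ℂ} (h : Link ρ) (Ψ : Matrix (A × B) E ℂ) (hΨ : ρ = Ψ * Ψᴴ)
    {P0 P1 : Matrix A A ℂ} {Q0 Q1 : Matrix B B ℂ} (p0 : P0.PosSemidef) (p1 : P1.PosSemidef)
    (q0 : Q0.PosSemidef) (q1 : Q1.PosSemidef) :
    ∃ Z : Matrix E E ℂ, Z * Zᴴ = 1 ∧
      (Ψᴴ * (P0 ⊗ₖ Q0) * Ψ).trace.re + (Ψᴴ * (P1 ⊗ₖ Q1) * Ψ).trace.re ≤
        (Z * (Ψᴴ * (P0 ⊗ₖ Q0) * Ψ)).trace.re - (Z * (Ψᴴ * (P1 ⊗ₖ Q1) * Ψ)).trace.re
        + (Ψᴴ * (P0 ⊗ₖ Q1) * Ψ).trace.re + (Ψᴴ * (P1 ⊗ₖ Q0) * Ψ).trace.re := by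
  obtain ⟨A0, rfl⟩ := exists_root p0
  obtain ⟨A1, rfl⟩ := exists_root p1
  obtain ⟨B0, rfl⟩ := exists_root q0
  obtain ⟨B1, rfl⟩ := exists_root q1
  obtain ⟨W0, c0, d0, e0⟩ := exists_polar ((A0 ⊗ₖ B0) * Ψ)
  obtain ⟨W1, c1, d1, e1⟩ := exists_polar ((A1 ⊗ₖ B1) * Ψ)
  obtain ⟨Z, hZ, hp⟩ := powers d0 d1
  have g : ∀ (L : Matrix A A ℂ) (R : Matrix B B ℂ),
      Ψᴴ * ((Lᴴ * L) ⊗ₖ (Rᴴ * R)) * Ψ = ((L ⊗ₖ R) * Ψ)ᴴ * ((L ⊗ₖ R) * Ψ) := by
    intro L R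
    rw [mul_kronecker_mul, conjTranspose_mul, conjTranspose_kronecker]
    simp only [Matrix.mul_assoc]
  have t : ∀ M : Matrix (A × B) (A × B) ℂ, (M * ρ).trace = (Ψᴴ * M * Ψ).trace := by
    intro M
    rw [hΨ, ← Matrix.mul_assoc, trace_mul_comm, Matrix.mul_assoc]
  have hi := h.ineq A0 A1 B0 B1 c0 c1
  rw [t, t, t] at hi
  have e2 : (Ψᴴ * ((A1 ⊗ₖ B1)ᴴ * (W1ᴴ * W0) * (A0 ⊗ₖ B0)) * Ψ).trace
      = (W0 * ((A0 ⊗ₖ B0) * Ψ) * (W1 * ((A1 ⊗ₖ B1) * Ψ))).trace := by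
    rw [trace_mul_comm (W0 * _), ← d1.1]
    simp only [conjTranspose_mul, Matrix.mul_assoc]
  rw [e2] at hi
  refine ⟨Z, hZ, ?_⟩
  rw [e0, e1, Matrix.mul_sub, trace_sub, Complex.sub_re, ← g, ← g] at hp
  linarith

end

end Vale.Agent.P372
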