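import Vale.Agent.P372.Lift

open Polynomial

namespace Vale.Agent.P372

/-- Gram vectors of the three by five state -/
def Wz : Fin 7 → Fin 3 → Fin 5 → ℤ :=
  ![![![-6, 0, 1, 3, 1], ![19, 0, -3, -9, -3], ![-32, 0, 5, 15, 5]],
    ![![1, 1, 1, 1, -1], ![-2, -5, -5, -5, 5], ![3, 8, 8, 8, -8]],
    ![![1, 0, 0, 0, 0], ![-9, 1, 0, 1, 1], ![17, -2, 0, -2, -2]],
    ![![1, -1, 0, 0, 0], ![-2, 4, 0, 0, 0], ![3, -6, 0, 0, 0]],
    ![![1, 0, -2, 0, 0], ![-2, 0, 8, 0, 0], ![3, 0, -13, 0, 0]],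
    ![![1, 0, 0, -4, 0], ![-2, 0, 0, 13, 0], ![3, 0, 0, -21, 0]],
    ![![1, 0, 0, 0, 0], ![-2, 0, 0, 0, -3], ![3, 0, 0, 0, 5]]]

theorem Wz_sym : ∀ a a' c c', ∑ k, Wz k a c * Wz k a' c' = ∑ k, Wz k a' c * Wz k a c' := by
  decide +kernel

/-- the six rational points -/
def degX : Fin 6 → Fin 3 → ℤ :=
  ![![1, -3, -2], ![1, 2, 1], ![2, -1, -1], ![-2, -2, -1], ![-1, -5, -3], ![1, 10, 6]]

/-- their partners -/
def degY : Fin 6 → Fin 5 → ℤ :=
  ![![0, 0, 1, 0, 0], ![1, 0, 0, 0, 0], ![0, -1, 0, 1, 0],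
    ![0, 1, 0, 0, 0], ![1, 0, 0, 0, 7], ![0, 0, 2, -1, 1]]

theorem deg_ker : ∀ i k, ∑ j, (∑ a, degX i a * Wz k a j) * degY i j = 0 := by decide +kernel

theorem deg_ne : ∀ i, ∃ j, degY i j ≠ 0 := by decide +kernel

theorem deg_mod : ∀ i a, (9655123 : ℤ) ∣ degX i a - ptsN (Fin.castAdd 9 i) a := by decide +kernel

/-- the roots modulo the prime -/
def rootZ : Fin 9 → ℤ :=
  ![480974, 921729, 1040484, 2895735, 3879495, 6211632, 6564041, 7801633, 8824676]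

section
variable {R : Type} [CommRing R]

/-- the polynomial whose roots parametrise the other nine points -/
def Gp (t : R) : R :=
  -115330078125 - 29900390625 * t + 1002375000 * t ^ 2 + 587756250 * t ^ 3 + 18630000 * t ^ 4
    - 2106000 * t ^ 5 - 87750 * t ^ 6 + 1320 * t ^ 7 + 93 * t ^ 8 + t ^ 9

/-- first coordinates -/
def Xp (t : R) : Fin 3 → R :=
  ![1468125 - 3375 * t + 1125 * t ^ 2 + 1395 * t ^ 3 - 28 * t ^ 4 - 2 * t ^ 5,
    3290625 + 634500 * t - 40950 * t ^ 2 - 5820 * t ^ 3 + 149 * t ^ 4 + 6 * t ^ 5,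
    1873125 + 405000 * t - 24750 * t ^ 2 - 3810 * t ^ 3 + 95 * t ^ 4 + 4 * t ^ 5]

/-- second coordinates -/
def Yp (t : R) : Fin 5 → R :=
  ![27337500 + 1113750 * t - 1734750 * t ^ 2 - 161550 * t ^ 3 + 1590 * t ^ 4 + 276 * t ^ 5 + 4 * t ^ 6,
    -106312500 - 34020000 * t - 2315250 * t ^ 2 + 40950 * t ^ 3 + 4830 * t ^ 4 + 70 * t ^ 5,
    -1417500 * t - 425250 * t ^ 2 - 37800 * t ^ 3 - 630 * t ^ 4,
    79734375 + 13466250 * t - 1866375 * t ^ 2 - 245700 * t ^ 3 + 2835 * t ^ 4 + 476 * t ^ 5 + 7 * t ^ 6,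
    -47840625 - 29767500 * t - 5599125 * t ^ 2 - 289800 * t ^ 3 + 6405 * t ^ 4 + 546 * t ^ 5 + 7 * t ^ 6]

theorem master (t : R) (h : Gp t = 0) (k : Fin 7) :
    ∑ j, (∑ a, Xp t a * (Wz k a j : R)) * Yp t j = 0 := by
  unfold Gp at h
  fin_cases k <;> simp [Fin.sum_univ_succ, Wz, Xp, Yp]
  · linear_combination (-120 + 28 * t - 8 * t ^ 2) * h
  · linear_combination (-120 + 28 * t - 8 * t ^ 2) * h
  · linear_combination (-1170 - 322 * t + 20 * t ^ 2) * h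
  · linear_combination (300 + 168 * t - 8 * t ^ 2) * h
  · linear_combination (-120 + 28 * t - 8 * t ^ 2) * h
  · linear_combination (1560 + 56 * t + 6 * t ^ 2) * h
  · linear_combination (-330 + 14 * t + 6 * t ^ 2) * h

theorem map_Xp {R' : Type} [CommRing R'] (f : R →+* R') (t : R) (a : Fin 3) :
    f (Xp t a) = Xp (f t) a := by
  fin_cases a <;> simp [Xp, map_ofNat]

theorem map_Yp {R' : Type} [CommRing R'] (f : R →+* R') (t : R) : f (Yp t 0) = Yp (f t) 0 := by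
  simp [Yp, map_ofNat]

theorem map_Gp {R' : Type} [CommRing R'] (f : R →+* R') (t : R) : f (Gp t) = Gp (f t) := by
  simp [Gp, map_ofNat]

end

theorem root_G : ∀ j, (9655123 : ℤ) ∣ Gp (rootZ j) := by decide +kernel

theorem root_X : ∀ j a, (9655123 : ℤ) ∣ Xp (rootZ j) a - ptsN (Fin.natAdd 6 j) a := by
  decide +kernel

theorem root_Y : ∀ j, ¬ (9655123 : ℤ) ∣ Yp (rootZ j) 0 := by decide +kernel

theorem G_monic : (Gp (X : ℤ[X])).Monic := by
  unfold Gp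
  monicity!

theorem aeval_G {R : Type} [CommRing R] (t : R) : aeval t (Gp (X : ℤ[X])) = Gp t := by
  have := map_Gp (aeval t : ℤ[X] →ₐ[ℤ] R).toRingHom X
  simpa using this

theorem no_cover : ∃ x : Fin 15 → Fin 3 → ℂ,
    (∀ i, ∃ y : Fin 5 → ℂ, y ≠ 0 ∧ ∀ k, ∑ j, (∑ a, x i a * (Wz k a j : ℂ)) * y j = 0) ∧
    ∀ (q : Fin 6 → ℂ) (q' : Fin 10 → ℂ), (∀ i, ∑ m, mono (m2 m) (x i) * q m = 0 ∨
      ∑ m, mono (m3 m) (x i) * q' m = 0) → q = 0 ∨ q' = 0 := by
  obtain ⟨k, _, _, φ, hφ, hr⟩ := exists_residue 9655123 (by norm_num)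
  set ι : integralClosure ℤ ℂ →+* ℂ := (integralClosure ℤ ℂ).val.toRingHom with hι
  have inj : Function.Injective ι := Subtype.val_injective
  have hz : ∀ z : ℤ, (z : k) = 0 ↔ (9655123 : ℤ) ∣ z := fun z => CharP.intCast_eq_zero_iff k _ z
  have : ∀ i : Fin (6 + 9), ∃ x : Fin 3 → integralClosure ℤ ℂ, (∀ a, φ (x a) = ptsN i a) ∧
      ∃ y : Fin 5 → ℂ, y ≠ 0 ∧ ∀ k, ∑ j, (∑ a, ι (x a) * (Wz k a j : ℂ)) * y j = 0 := by
    intro i
    refine Fin.addCases (fun i => ?_) (fun j => ?_) i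
    · refine ⟨fun a => degX i a, fun a => ?_, fun j => degY i j, fun e => ?_, fun k => ?_⟩
      · have := (hz _).mpr (deg_mod i a)
        rw [Int.cast_sub, Int.cast_natCast, sub_eq_zero] at this
        rw [map_intCast, this]
      · obtain ⟨j, hj⟩ := deg_ne i
        exact hj (Int.cast_eq_zero.mp (congrFun e j))
      · simp only [map_intCast]
        exact_mod_cast deg_ker i k
    · obtain ⟨α, h1, h2⟩ := hr _ G_monic (rootZ j) (by
        rw [← coe_aeval_eq_eval, aeval_G]; exact root_G j)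
      rw [aeval_G] at h1
      refine ⟨Xp α, fun a => ?_, Yp (ι α), fun e => ?_, fun k => ?_⟩
      · have := (hz _).mpr (root_X j a)
        rw [Int.cast_sub, Int.cast_natCast, sub_eq_zero] at this
        rw [map_Xp, h2, ← this]
        exact (map_Xp (Int.castRingHom k) _ a).symm
      · have e1 : ι (Yp α 0) = 0 := by rw [map_Yp, e]; rfl
        have e2 : Yp α 0 = 0 := inj (e1.trans (map_zero ι).symm)
        refine root_Y j ((hz _).mp ?_)
        have e3 := map_Yp φ α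
        rw [e2, map_zero, h2] at e3
        exact (map_Yp (Int.castRingHom k) _).trans e3.symm
      · simp only [map_Xp]
        exact master _ (by rw [← map_Gp, h1, map_zero]) k
  choose x hx hy using this
  exact ⟨fun i a => ι (x i a), hy, cover_C ι inj φ hφ x hx⟩

end Vale.Agent.P372
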