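import Vale.Agent.P372.Key
import Vale.Agent.P372.Points

open Matrix
open scoped ComplexOrder MatrixOrder Kronecker

namespace Vale.Agent.P372

/-- complex Gram matrices -/
noncomputable def W0 (k : Fin 7) : Matrix (Fin 3) (Fin 5) ℂ := Matrix.of fun a j => (Wz k a j : ℂ)

theorem W0_sym : Sym W0 := by
  intro a a' c c'
  simp only [W0, of_apply, star_intCast]
  exact_mod_cast Wz_sym a a' c c'

theorem exists_filter {s n : ℕ} (M : Fin n → Fin s → Fin 3)
    (h : ∀ a : Fin s → Fin 3, ∃ m, Finset.univ.val.map (M m) = Finset.univ.val.map a) :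
    ∃ L : Matrix (Fin n) (Fin s → Fin 3) ℂ, L.map star = L ∧
      ∀ (x : Fin 3 → ℂ) (k : Fin s → Fin 7) (c : Fin s → Fin 5),
        ∑ m, mono (M m) x * (L * pw (Fin s) W0 k) m c
          = ∏ i, ∑ a, x a * (Wz (k i) a (c i) : ℂ) := by
  choose μ hμ using h
  have e : ∀ (x : Fin 3 → ℂ) a, mono (M (μ a)) x = ∏ i, x (a i) := by
    intro x a
    have := congrArg (fun s => (Multiset.map x s).prod) (hμ a)
    simp only [Multiset.map_map] at this
    exact this
  refine ⟨Matrix.of fun m a => if μ a = m then 1 else 0, ?_, fun x k c => ?_⟩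
  · ext m a
    simp [apply_ite]
  · simp only [Matrix.mul_apply, of_apply, Finset.mul_sum, ite_mul, one_mul, zero_mul, mul_ite,
      mul_zero]
    rw [Finset.sum_comm, Fintype.prod_sum]
    refine Finset.sum_congr rfl fun a _ => ?_
    simp only [Finset.sum_ite_eq, Finset.mem_univ, if_true, e, pw, of_apply, W0,
      Finset.prod_mul_distrib]

/-- the totally antisymmetric vector -/
noncomputable def anti (z : (Fin 2 → Fin 5) × (Fin 3 → Fin 5)) : ℂ :=
  ∑ s : Equiv.Perm (Fin (2 + 3)), if (fun i => s (Fin.castAdd 3 i), fun i => s (Fin.natAdd 2 i)) = z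
    then ((Equiv.Perm.sign s : ℤ) : ℂ) else 0

/-- the matrix of five chosen rows at the point `x` -/
noncomputable def rows (x : Fin 3 → ℂ) (t : (Fin 2 → Fin 7) × (Fin 3 → Fin 7)) :
    Matrix (Fin (2 + 3)) (Fin (2 + 3)) ℂ :=
  Matrix.of fun s j => ∑ a, x a * (Wz (Fin.append t.1 t.2 s) a j : ℂ)

theorem exists_link : ∃ g : (Fin 2 → Fin 7) × (Fin 3 → Fin 7) → Fin 6 × Fin 10 → ℂ,
    Link (∑ t, vecMulVec (g t) (star (g t))) ∧ ∀ x t,
      (fun z : Fin 6 × Fin 10 => mono (m2 z.1) x * mono (m3 z.2) x) ⬝ᵥ g t = (rows x t).det := by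
  obtain ⟨L2, h2, e2⟩ := exists_filter m2 (by decide +kernel)
  obtain ⟨L3, h3, e3⟩ := exists_filter m3 (by decide +kernel)
  refine ⟨fun t => ((L2 * pw (Fin 2) W0 t.1) ⊗ₖ (L3 * pw (Fin 3) W0 t.2)) *ᵥ anti,
    ⟨_, _, _, _, inferInstance, inferInstance, inferInstance, inferInstance, _, _, anti,
      W0_sym.pw.filter L2 h2, W0_sym.pw.filter L3 h3, rfl⟩, fun x t => ?_⟩
  have e : ∀ z : (Fin 2 → Fin 5) × (Fin 3 → Fin 5),
      ((fun z : Fin 6 × Fin 10 => mono (m2 z.1) x * mono (m3 z.2) x) ᵥ*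
        ((L2 * pw (Fin 2) W0 t.1) ⊗ₖ (L3 * pw (Fin 3) W0 t.2))) z
      = (∏ i, ∑ a, x a * (Wz (t.1 i) a (z.1 i) : ℂ)) * ∏ i, ∑ a, x a * (Wz (t.2 i) a (z.2 i) : ℂ) := by
    intro z
    rw [← e2, ← e3, Finset.sum_mul_sum]
    simp only [vecMul, dotProduct, Fintype.sum_prod_type, kroneckerMap_apply]
    exact Finset.sum_congr rfl fun _ _ => Finset.sum_congr rfl fun _ _ => by ring
  rw [dotProduct_mulVec, ← det_transpose, det_apply', dotProduct]
  simp only [e, anti, Finset.mul_sum, mul_ite, mul_zero]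
  rw [Finset.sum_comm]
  refine Finset.sum_congr rfl fun s _ => ?_
  rw [Finset.sum_ite_eq, if_pos (Finset.mem_univ _), Fin.prod_univ_add, mul_comm]
  simp only [rows, transpose_apply, of_apply, Fin.append_left, Fin.append_right]

theorem det_ne : (rows ![2, 1, 0] (![0, 3], ![4, 5, 6])).det ≠ 0 := by
  intro h
  obtain ⟨y, hy, e⟩ := Matrix.exists_mulVec_eq_zero_iff.mpr h
  have e0 := congrFun e 0
  have e1 := congrFun e 1
  have e2 := congrFun e 2
  have e3 := congrFun e 3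
  have e4 := congrFun e 4
  have a0 : Fin.append (![0, 3] : Fin 2 → Fin 7) ![4, 5, 6] 0 = 0 := rfl
  have a1 : Fin.append (![0, 3] : Fin 2 → Fin 7) ![4, 5, 6] 1 = 3 := rfl
  have a2 : Fin.append (![0, 3] : Fin 2 → Fin 7) ![4, 5, 6] 2 = 4 := rfl
  have a3 : Fin.append (![0, 3] : Fin 2 → Fin 7) ![4, 5, 6] 3 = 5 := rfl
  have a4 : Fin.append (![0, 3] : Fin 2 → Fin 7) ![4, 5, 6] 4 = 6 := rfl
  simp only [mulVec, dotProduct, rows, of_apply, a0, a1, a2, a3, a4] at e0 e1 e2 e3 e4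
  simp [Fin.sum_univ_five, Fin.sum_univ_three, Wz] at e0 e1 e2 e3 e4
  replace e1 := e1.resolve_left (by norm_num)
  replace e2 := e2.resolve_left (by norm_num)
  replace e3 := e3.resolve_left (by norm_num)
  apply hy
  funext i
  fin_cases i
  · show y 0 = 0
    linear_combination e0 / 7 + e2 / 7 + 3 * e3 / 7 + e4 / 7
  exacts [e1, e2, e3, e4]

theorem form_gram {T I : Type} [Fintype T] [Fintype I] (g : T → I → ℂ) (v : I → ℂ) :
    v ⬝ᵥ (∑ t, vecMulVec (g t) (star (g t))) *ᵥ star v = ∑ t, (v ⬝ᵥ g t) * star (v ⬝ᵥ g t) := by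
  rw [sum_mulVec, dotProduct_sum]
  refine Finset.sum_congr rfl fun t _ => ?_
  simp only [mulVec, dotProduct, vecMulVec_apply, Pi.star_apply, star_sum, star_mul',
    Finset.mul_sum, Finset.sum_mul]
  rw [Finset.sum_comm]
  exact Finset.sum_congr rfl fun _ _ => Finset.sum_congr rfl fun _ _ => by ring

theorem form_kron {A B : Type} [Fintype A] [Fintype B] (α : Matrix A A ℂ) (β : Matrix B B ℂ)
    (u : A → ℂ) (v : B → ℂ) :
    (fun z : A × B => u z.1 * v z.2) ⬝ᵥ (α ⊗ₖ β) *ᵥ star (fun z : A × B => u z.1 * v z.2)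
      = (u ⬝ᵥ α *ᵥ star u) * (v ⬝ᵥ β *ᵥ star v) := by
  simp only [mulVec, dotProduct, Fintype.sum_prod_type, kroneckerMap_apply, Pi.star_apply,
    star_mul', Finset.sum_mul_sum]
  simp only [Finset.mul_sum, Finset.sum_mul]
  refine Finset.sum_congr rfl fun _ _ => Finset.sum_congr rfl fun _ _ => ?_
  rw [Finset.sum_comm]
  exact Finset.sum_congr rfl fun _ _ => Finset.sum_congr rfl fun _ _ => by ring

theorem exists_row {n : ℕ} {α : Matrix (Fin n) (Fin n) ℂ} (h : IsState α) :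
    ∃ q : Fin n → ℂ, q ≠ 0 ∧ ∀ v : Fin n → ℂ, v ⬝ᵥ α *ᵥ star v = 0 → ∑ m, v m * q m = 0 := by
  have h0 : ∃ r m, α r m ≠ 0 := by
    by_contra hh
    push Not at hh
    have : α = 0 := by ext r m; exact hh r m
    have h1 := h.2
    rw [this, trace_zero] at h1
    exact zero_ne_one h1
  obtain ⟨r, m, hm⟩ := h0
  refine ⟨fun m => star (α r m), fun e => hm (star_eq_zero.mp (congrFun e m)), fun v hv => ?_⟩
  have h1 := (h.1.dotProduct_mulVec_zero_iff (star v)).mp (by rwa [star_star])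
  have h2 := congrArg star (congrFun h1 r)
  simpa only [mulVec, dotProduct, Pi.star_apply, star_sum, star_mul, star_star, Pi.zero_apply,
    star_zero] using h2

theorem main : ∃ ρ : Matrix (Fin 6 × Fin 10) (Fin 6 × Fin 10) ℂ,
    IsState ρ ∧ ¬ Separable ρ ∧ Link ρ := by
  obtain ⟨g, hl, hg⟩ := exists_link
  obtain ⟨x, hx, hc⟩ := no_cover
  set ρ := ∑ t, vecMulVec (g t) (star (g t)) with hρ
  have htr : 0 < ρ.trace := by
    refine lt_of_le_of_ne hl.psd.trace_nonneg fun e => det_ne ?_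
    have h0 := hl.psd.trace_eq_zero_iff.mp e.symm
    have h1 := form_gram g fun z : Fin 6 × Fin 10 =>
      mono (m2 z.1) ![2, 1, 0] * mono (m3 z.2) ![2, 1, 0]
    rw [← hρ, h0, zero_mulVec, dotProduct_zero] at h1
    have h2 := (Finset.sum_eq_zero_iff_of_nonneg fun t _ => mul_star_self_nonneg _).mp h1.symm
      (![0, 3], ![4, 5, 6]) (Finset.mem_univ _)
    rw [hg] at h2
    simpa using h2
  obtain ⟨h1, h2⟩ := Complex.pos_iff.mp htr
  have hl' := hl.smul (inv_pos.mpr h1).le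
  refine ⟨_, ⟨hl'.psd, ?_⟩, ?_, hl'⟩
  · have : ρ.trace = (ρ.trace.re : ℂ) := Complex.ext rfl (by simp [← h2])
    rw [trace_smul, smul_eq_mul, Complex.ofReal_inv, ← this, inv_mul_cancel₀ htr.ne']
  · rintro ⟨k, w, α, β, w0, w1, hα, hβ, e⟩
    obtain ⟨j, -, hj⟩ := Finset.exists_ne_zero_of_sum_ne_zero (w1.trans_ne one_ne_zero)
    obtain ⟨q, q0, hq⟩ := exists_row (hα j)
    obtain ⟨q', q0', hq'⟩ := exists_row (hβ j)
    refine (hc q q' fun i => ?_).elim q0 q0'
    obtain ⟨y, y0, hy⟩ := hx i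
    have z1 : ∀ t, (rows (x i) t).det = 0 := fun t =>
      Matrix.exists_mulVec_eq_zero_iff.mp ⟨y, y0, funext fun s => hy _⟩
    have z2 := form_gram g fun z : Fin 6 × Fin 10 => mono (m2 z.1) (x i) * mono (m3 z.2) (x i)
    simp only [hg, z1, zero_mul, Finset.sum_const_zero] at z2
    have z3 := congrArg (fun M => (fun z : Fin 6 × Fin 10 => mono (m2 z.1) (x i)
      * mono (m3 z.2) (x i)) ⬝ᵥ M *ᵥ star (fun z : Fin 6 × Fin 10 => mono (m2 z.1) (x i)
      * mono (m3 z.2) (x i))) e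
    simp only [smul_mulVec, dotProduct_smul, sum_mulVec, dotProduct_sum] at z3
    rw [← hρ] at z2
    simp only [z2, smul_zero,
      form_kron _ _ (fun m => mono (m2 m) (x i)) (fun m => mono (m3 m) (x i))] at z3
    have nn : ∀ {n : ℕ} {a : Matrix (Fin n) (Fin n) ℂ}, IsState a → ∀ v : Fin n → ℂ,
        0 ≤ v ⬝ᵥ a *ᵥ star v := fun ha v => by
      simpa only [star_star] using ha.1.dotProduct_mulVec_nonneg (star v)
    have z4 := (Finset.sum_eq_zero_iff_of_nonneg fun l _ => smul_nonneg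
      (Complex.zero_le_real.mpr (w0 l)) (mul_nonneg (nn (hα l) _) (nn (hβ l) _))).mp z3.symm j
      (Finset.mem_univ _)
    rw [smul_eq_mul, mul_eq_zero, mul_eq_zero] at z4
    rcases z4 with z4 | z4 | z4
    · exact absurd (Complex.ofReal_eq_zero.mp z4) hj
    · exact Or.inl (hq _ z4)
    · exact Or.inr (hq' _ z4)

theorem exists_purification {a b : ℕ} {ρ : Matrix (Fin a × Fin b) (Fin a × Fin b) ℂ}
    (h : ρ.PosSemidef) : ∃ (d : ℕ) (ψ : (Fin a × Fin b) × Fin d → ℂ), Purifies ψ ρ := by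
  obtain ⟨B, rfl⟩ := exists_root h
  refine ⟨a * b, fun z => star (B (finProdFinEquiv.symm z.2) z.1), fun x y => ?_⟩
  rw [Matrix.mul_apply, ← Equiv.sum_comp finProdFinEquiv.symm]
  simp

end Vale.Agent.P372
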