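import Vale.Agent.P372.Link

open Matrix
open scoped ComplexOrder MatrixOrder Kronecker

set_option linter.unusedSectionVars false

namespace Vale.Agent.P372

variable {K K' A A' B C D ι : Type} [Fintype K] [Fintype K'] [Fintype A] [Fintype A'] [Fintype B]
  [Fintype C] [Fintype D] [Fintype ι] [DecidableEq ι]

/-- tensor power of a family of matrices -/
def pw (ι : Type) [Fintype ι] (W : K → Matrix A C ℂ) (k : ι → K) : Matrix (ι → A) (ι → C) ℂ :=
  Matrix.of fun a c => ∏ i, W (k i) (a i) (c i)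

theorem Sym.pw {W : K → Matrix A C ℂ} (h : Sym W) : Sym (pw ι W) := by
  intro a a' c c'
  simp only [P372.pw, of_apply, star_prod, ← Finset.prod_mul_distrib]
  rw [← Fintype.prod_sum (fun i k => W k (a i) (c i) * star (W k (a' i) (c' i))),
    ← Fintype.prod_sum (fun i k => W k (a' i) (c i) * star (W k (a i) (c' i)))]
  exact Finset.prod_congr rfl fun i _ => h _ _ _ _

theorem Sym.filter {W : K → Matrix A C ℂ} (h : Sym W) (L : Matrix A' A ℂ) (hL : L.map star = L) :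
    Sym fun k => L * W k := by
  intro a a' c c'
  have := h.swap L L a a' c c'
  rwa [hL] at this

theorem kron_mulVec (W : Matrix A C ℂ) (V : Matrix B D ℂ) (ξ : C × D → ℂ) (x : A × B) :
    ((W ⊗ₖ V) *ᵥ ξ) x = ∑ c, ∑ d, W x.1 c * V x.2 d * ξ (c, d) := by
  simp only [mulVec, dotProduct, Fintype.sum_prod_type, kroneckerMap_apply]

theorem pw_mulVec (W : K → Matrix A C ℂ) (V : K' → Matrix B D ℂ) (ξ : C × D → ℂ) (k : ι → K)
    (k' : ι → K') (x : (ι → A) × (ι → B)) :
    ((pw ι W k ⊗ₖ pw ι V k') *ᵥ fun z : (ι → C) × (ι → D) => ∏ i, ξ (z.1 i, z.2 i)) x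
      = ∏ i, ((W (k i) ⊗ₖ V (k' i)) *ᵥ ξ) (x.1 i, x.2 i) := by
  simp only [kron_mulVec]
  rw [Fintype.prod_sum]
  refine Finset.sum_congr rfl fun c _ => ?_
  rw [Fintype.prod_sum]
  refine Finset.sum_congr rfl fun d _ => ?_
  simp only [P372.pw, of_apply, Finset.prod_mul_distrib]

theorem Link.pow {ρ : Matrix (A × B) (A × B) ℂ} (h : Link ρ) :
    Link (Matrix.of fun x y : (ι → A) × (ι → B) => ∏ i, ρ (x.1 i, x.2 i) (y.1 i, y.2 i)) := by
  obtain ⟨K, K', C, D, _, _, _, _, W, V, ξ, hW, hV, rfl⟩ := h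
  refine ⟨ι → K, ι → K', ι → C, ι → D, inferInstance, inferInstance, inferInstance, inferInstance,
    pw ι W, pw ι V, fun z => ∏ i, ξ (z.1 i, z.2 i), hW.pw, hV.pw, ?_⟩
  ext x y
  simp only [of_apply, Matrix.sum_apply, vecMulVec_apply, Pi.star_apply, pw_mulVec,
    Fintype.sum_prod_type, star_prod, ← Finset.prod_mul_distrib]
  rw [Fintype.prod_sum]
  refine Finset.sum_congr rfl fun k _ => ?_
  rw [Fintype.prod_sum]

theorem Link.smul {ρ : Matrix (A × B) (A × B) ℂ} (h : Link ρ) {t : ℝ} (ht : 0 ≤ t) :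
    Link ((t : ℂ) • ρ) := by
  obtain ⟨K, K', C, D, _, _, _, _, W, V, ξ, hW, hV, rfl⟩ := h
  refine ⟨K, K', C, D, inferInstance, inferInstance, inferInstance, inferInstance, W, V,
    ((√t : ℝ) : ℂ) • ξ, hW, hV, ?_⟩
  have : (t : ℂ) = ((√t : ℝ) : ℂ) * ((√t : ℝ) : ℂ) := by
    rw [← Complex.ofReal_mul, Real.mul_self_sqrt ht]
  ext x y
  simp only [Matrix.smul_apply, Matrix.sum_apply, vecMulVec_apply, Pi.star_apply, mulVec_smul,
    Pi.smul_apply, smul_eq_mul, Finset.mul_sum, star_mul', Complex.star_def, Complex.conj_ofReal]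
  refine Finset.sum_congr rfl fun k _ => ?_
  conv_lhs => rw [this]
  ring

theorem Link.psd {ρ : Matrix (A × B) (A × B) ℂ} (h : Link ρ) : ρ.PosSemidef := by
  obtain ⟨K, K', C, D, _, _, _, _, W, V, ξ, hW, hV, rfl⟩ := h
  exact posSemidef_sum _ fun t _ => posSemidef_vecMulVec_self_star _

end Vale.Agent.P372
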