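import Vale.Agent.P372.Pow

open Matrix
open scoped ComplexOrder MatrixOrder Kronecker

set_option linter.unusedSectionVars false

namespace Vale.Agent.P372

open Classical

/-- the operator left on `E` by the effect `M` -/
noncomputable def pt {S E : Type} [Fintype S] [Fintype E] (M : Matrix S S ℂ)
    (τ : Matrix (S × E) (S × E) ℂ) : Matrix E E ℂ :=
  Matrix.of fun e e' => ∑ x, ((M ⊗ₖ (1 : Matrix E E ℂ)) * τ) (x, e) (x, e')

theorem pt_apply {S E : Type} [Fintype S] [Fintype E] (M : Matrix S S ℂ)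
    (τ : Matrix (S × E) (S × E) ℂ) (e e' : E) :
    pt M τ e e' = ∑ x, ∑ y, M x y * τ (y, e) (x, e') := by
  simp [pt, Matrix.mul_apply, Fintype.sum_prod_type, one_apply]

theorem pt_conj {S S' E J : Type} [Fintype S] [Fintype S'] [Fintype E] [Fintype J]
    (M : Matrix S' S' ℂ) (N : J → Matrix S' S ℂ) (τ : Matrix (S × E) (S × E) ℂ) :
    pt M (∑ j, (N j ⊗ₖ (1 : Matrix E E ℂ)) * τ * (N j ⊗ₖ (1 : Matrix E E ℂ))ᴴ)
      = pt (∑ j, (N j)ᴴ * M * N j) τ := by
  ext e e'
  have l : ∀ j y x, ((N j ⊗ₖ (1 : Matrix E E ℂ)) * τ * (N j ⊗ₖ (1 : Matrix E E ℂ))ᴴ) (y, e) (x, e')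
      = ∑ u, ∑ v, N j y v * τ (v, e) (u, e') * star (N j x u) := by
    intro j y x
    simp [Matrix.mul_apply, Fintype.sum_prod_type, one_apply, Finset.sum_mul, apply_ite]
  simp only [pt_apply, Matrix.sum_apply, l]
  simp only [Matrix.mul_apply, conjTranspose_apply, Finset.mul_sum, Finset.sum_mul]
  calc ∑ x, ∑ y, ∑ j, ∑ u, ∑ v, M x y * (N j y v * τ (v, e) (u, e') * star (N j x u))
      = ∑ p : S' × S' × J × S × S, M p.1 p.2.1 * (N p.2.2.1 p.2.1 p.2.2.2.2
          * τ (p.2.2.2.2, e) (p.2.2.2.1, e') * star (N p.2.2.1 p.1 p.2.2.2.1)) := by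
        simp only [Fintype.sum_prod_type]
    _ = ∑ p : S × S × J × S' × S', star (N p.2.2.1 p.2.2.2.2 p.1) * M p.2.2.2.2 p.2.2.2.1
          * N p.2.2.1 p.2.2.2.1 p.2.1 * τ (p.2.1, e) (p.1, e') := by
        refine Fintype.sum_equiv ⟨fun p => (p.2.2.2.1, p.2.2.2.2, p.2.2.1, p.2.1, p.1),
          fun p => (p.2.2.2.2, p.2.2.2.1, p.2.2.1, p.1, p.2.1), fun _ => rfl, fun _ => rfl⟩ _ _
          fun p => ?_
        simp only [Equiv.coe_fn_mk]
        ring
    _ = _ := by simp only [Fintype.sum_prod_type]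

theorem sum_kron_left {A B J : Type} [Fintype J] (P : J → Matrix A A ℂ) (Q : Matrix B B ℂ) :
    (∑ j, P j) ⊗ₖ Q = ∑ j, P j ⊗ₖ Q := by
  ext x y
  simp [Matrix.sum_apply, Finset.sum_mul]

theorem sum_kron_right {A B J : Type} [Fintype J] (P : Matrix A A ℂ) (Q : J → Matrix B B ℂ) :
    P ⊗ₖ (∑ j, Q j) = ∑ j, P ⊗ₖ Q j := by
  ext x y
  simp [Matrix.sum_apply, Finset.mul_sum]

theorem one_kron {A B : Type} {i1 : DecidableEq A} {i2 : DecidableEq B} {i3 : DecidableEq (A × B)} :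
    (1 : Matrix A A ℂ) ⊗ₖ (1 : Matrix B B ℂ) = 1 := by
  ext x y
  by_cases h1 : x.1 = y.1 <;> by_cases h2 : x.2 = y.2 <;> simp [one_apply, Prod.ext_iff, h1, h2]

theorem sum_leaf {m : ℕ} {L : Fin m → Type} {M : Type} [AddCommMonoid M] [∀ i, Fintype (L i)]
    (inst : Fintype ((i : Fin m) × L i)) (f : (i : Fin m) × L i → M) :
    @Finset.sum _ _ _ (@Finset.univ _ inst) f = ∑ i, ∑ l, f ⟨i, l⟩ := by
  rw [← Fintype.sum_sigma, Subsingleton.elim inst]

/-- every branch of a protocol is a product effect -/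
theorem effects {K : Type} [Fintype K] {A B : Type} (p : Prot K A B) :
    ∀ [Fintype A] [Fintype B], p.Valid →
      ∃ (P : p.Leaf → K → Matrix A A ℂ) (Q : p.Leaf → K → Matrix B B ℂ),
        (∀ l k, (P l k).PosSemidef) ∧ (∀ l k, (Q l k).PosSemidef) ∧
        (∑ l, ∑ k, ∑ k', P l k ⊗ₖ Q l k' = 1) ∧
        ∀ (E : Type) [Fintype E] (τ : Matrix ((A × B) × E) ((A × B) × E) ℂ) l k k',
          p.out τ l k k' = pt (P l k ⊗ₖ Q l k') τ := by
  induction p with
  | done P Q =>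
    intro _ _ hv
    obtain ⟨h1, h2, h3, h4⟩ := hv
    refine ⟨fun _ => P, fun _ => Q, fun _ => h1, fun _ => h3, ?_, fun E _ τ l k k' => rfl⟩
    have : Unique (Prot.done P Q).Leaf := inferInstanceAs (Unique Unit)
    rw [Fintype.sum_unique]
    simp only [← sum_kron_right, ← sum_kron_left, h2, h4]
    exact one_kron
  | @alice A B m r d T next ih =>
    intro _ _ hv
    obtain ⟨h1, h2⟩ := hv
    choose P Q hP hQ hs ho using fun i => ih i (h2 i)
    have key : ∀ i (M : Matrix (Fin (d i)) (Fin (d i)) ℂ) (N : Matrix B B ℂ),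
        (∑ j, (T i j)ᴴ * M * T i j) ⊗ₖ N
        = ∑ j, (T i j ⊗ₖ (1 : Matrix B B ℂ))ᴴ * (M ⊗ₖ N) * (T i j ⊗ₖ (1 : Matrix B B ℂ)) := by
      intro i M N
      rw [sum_kron_left]
      refine Finset.sum_congr rfl fun j _ => ?_
      rw [conjTranspose_kronecker, ← mul_kronecker_mul, ← mul_kronecker_mul, conjTranspose_one,
        Matrix.one_mul, Matrix.mul_one]
    refine ⟨fun l k => ∑ j, (T l.1 j)ᴴ * P l.1 l.2 k * T l.1 j, fun l k => Q l.1 l.2 k,
      fun l k => posSemidef_sum _ fun j _ => (hP _ _ _).conjTranspose_mul_mul_same _,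
      fun l k => hQ _ _ _, ?_, fun E _ τ l k k' => ?_⟩
    · refine (sum_leaf _ _).trans ?_
      have : ∀ i, ∑ l : (next i).Leaf, ∑ k, ∑ k', (∑ j, (T i j)ᴴ * P i l k * T i j) ⊗ₖ Q i l k'
          = (∑ j, (T i j)ᴴ * T i j) ⊗ₖ (1 : Matrix B B ℂ) := by
        intro i
        have h3 := key i 1 1
        simp only [Matrix.mul_one] at h3
        rw [h3]
        have h4 : (1 : Matrix (Fin (d i)) (Fin (d i)) ℂ) ⊗ₖ (1 : Matrix B B ℂ)
            = ∑ l, ∑ k, ∑ k', P i l k ⊗ₖ Q i l k' := by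
          rw [hs i]; exact one_kron
        rw [h4]
        simp only [key, Matrix.mul_sum, Matrix.sum_mul]
        symm
        rw [Finset.sum_comm]
        refine Finset.sum_congr rfl fun l _ => ?_
        rw [Finset.sum_comm]
        refine Finset.sum_congr rfl fun k _ => ?_
        rw [Finset.sum_comm]
      simp only [this]
      rw [← sum_kron_left, h1]
      exact one_kron
    · rw [key, ← pt_conj, ← ho]
      rfl
  | @bob A B m r d T next ih =>
    intro _ _ hv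
    obtain ⟨h1, h2⟩ := hv
    choose P Q hP hQ hs ho using fun i => ih i (h2 i)
    have key : ∀ i (M : Matrix A A ℂ) (N : Matrix (Fin (d i)) (Fin (d i)) ℂ),
        M ⊗ₖ (∑ j, (T i j)ᴴ * N * T i j)
        = ∑ j, ((1 : Matrix A A ℂ) ⊗ₖ T i j)ᴴ * (M ⊗ₖ N) * ((1 : Matrix A A ℂ) ⊗ₖ T i j) := by
      intro i M N
      rw [sum_kron_right]
      refine Finset.sum_congr rfl fun j _ => ?_
      rw [conjTranspose_kronecker, ← mul_kronecker_mul, ← mul_kronecker_mul, conjTranspose_one,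
        Matrix.one_mul, Matrix.mul_one]
    refine ⟨fun l k => P l.1 l.2 k, fun l k => ∑ j, (T l.1 j)ᴴ * Q l.1 l.2 k * T l.1 j,
      fun l k => hP _ _ _,
      fun l k => posSemidef_sum _ fun j _ => (hQ _ _ _).conjTranspose_mul_mul_same _,
      ?_, fun E _ τ l k k' => ?_⟩
    · refine (sum_leaf _ _).trans ?_
      have : ∀ i, ∑ l : (next i).Leaf, ∑ k, ∑ k', P i l k ⊗ₖ (∑ j, (T i j)ᴴ * Q i l k' * T i j)
          = (1 : Matrix A A ℂ) ⊗ₖ (∑ j, (T i j)ᴴ * T i j) := by
        intro i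
        have h3 := key i 1 1
        simp only [Matrix.mul_one] at h3
        rw [h3]
        have h4 : (1 : Matrix A A ℂ) ⊗ₖ (1 : Matrix (Fin (d i)) (Fin (d i)) ℂ)
            = ∑ l, ∑ k, ∑ k', P i l k ⊗ₖ Q i l k' := by
          rw [hs i]; exact one_kron
        rw [h4]
        simp only [key, Matrix.mul_sum, Matrix.sum_mul]
        symm
        rw [Finset.sum_comm]
        refine Finset.sum_congr rfl fun l _ => ?_
        rw [Finset.sum_comm]
        refine Finset.sum_congr rfl fun k _ => ?_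
        rw [Finset.sum_comm]
      simp only [this]
      rw [← sum_kron_right, h1]
      exact one_kron
    · rw [key, ← pt_conj, ← ho]
      rfl

end Vale.Agent.P372
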